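import Vale.Agent.P162.H790.Geom

/-!
# Counting bad geometries (generic network), part B1
-/

namespace Vale.Agent.P162.H790

open Equiv Finset
open Vale.Agent.P162.S2

theorem desc_step (m M c : ℕ) (hm : m ≤ M) :
    (m - 1).descFactorial c * M ≤ (M - c) * m.descFactorial c := by
  rcases Nat.eq_zero_or_pos m with rfl | hpos
  · rcases Nat.eq_zero_or_pos c with rfl | hc
    · simp
    · rw [Nat.zero_sub, Nat.descFactorial_eq_zero_iff_lt.2 hc]; simp
  · obtain ⟨m', rfl⟩ : ∃ m', m = m' + 1 := ⟨m - 1, by omega⟩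
    have h1 : (m' + 1 - c) * (m' + 1).descFactorial c = (m' + 1) * m'.descFactorial c := by
      rw [← Nat.descFactorial_succ, Nat.succ_descFactorial_succ]
    have h2 : (m' + 1 - c) * M ≤ (M - c) * (m' + 1) := by
      rcases le_total (m' + 1) c with h | h
      · rw [Nat.sub_eq_zero_of_le h]; simp
      · have h3 : c ≤ M := h.trans hm
        zify [h, h3]
        have h4 : ((m' + 1 : ℕ) : ℤ) ≤ M := by exact_mod_cast hm
        have h5 : (0 : ℤ) ≤ c := by positivity
        push_cast at h4
        nlinarith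
    have h3 : (m' + 1) * ((m' + 1 - 1).descFactorial c * M) ≤
        (m' + 1) * ((M - c) * (m' + 1).descFactorial c) := by
      rw [Nat.add_sub_cancel]
      calc (m' + 1) * (m'.descFactorial c * M) = ((m' + 1) * m'.descFactorial c) * M := by ring
        _ = ((m' + 1 - c) * M) * (m' + 1).descFactorial c := by rw [← h1]; ring
        _ ≤ ((M - c) * (m' + 1)) * (m' + 1).descFactorial c := Nat.mul_le_mul_right _ h2
        _ = _ := by ring
    exact Nat.le_of_mul_le_mul_left h3 (by omega)

theorem desc_ineq (M c j : ℕ) :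
    (M - j).descFactorial c * M ^ j ≤ (M - c) ^ j * M.descFactorial c := by
  induction j with
  | zero => simp
  | succ j ih =>
    calc (M - (j + 1)).descFactorial c * M ^ (j + 1)
        = ((M - j - 1).descFactorial c * M) * M ^ j := by
          rw [show M - (j + 1) = M - j - 1 by omega]; ring
      _ ≤ ((M - c) * (M - j).descFactorial c) * M ^ j :=
          Nat.mul_le_mul_right _ (desc_step (M - j) M c (Nat.sub_le _ _))
      _ = (M - c) * ((M - j).descFactorial c * M ^ j) := by ring
      _ ≤ (M - c) * ((M - c) ^ j * M.descFactorial c) := Nat.mul_le_mul_left _ ih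
      _ = _ := by ring

section emb

variable {X α : Type*} [Fintype X] [DecidableEq X] [Fintype α] [DecidableEq α]

/-- Embeddings with a prescribed value that avoid a set. -/
theorem card_emb_avoid (i : α) (x : X) (Y : Finset X) (hx : x ∉ Y) :
    (univ.filter fun f : α ↪ X => f i = x ∧ ∀ y ∈ Y, ∀ j, f j ≠ y).card ≤
      (Fintype.card X - 1 - Y.card).descFactorial (Fintype.card α - 1) := by
  have hg : ∀ (f : {f : α ↪ X // f i = x ∧ ∀ y ∈ Y, ∀ j, f j ≠ y}) (j : {j : α // j ≠ i}),
      f.1 j.1 ∈ (insert x Y)ᶜ := by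
    rintro ⟨f, h1, h2⟩ ⟨j, hj⟩
    rw [mem_compl, mem_insert, not_or]
    refine ⟨fun h => hj (f.injective (h.trans h1.symm)), fun h => h2 _ h j rfl⟩
  let g : {f : α ↪ X // f i = x ∧ ∀ y ∈ Y, ∀ j, f j ≠ y} →
      ({j : α // j ≠ i} ↪ ((insert x Y)ᶜ : Finset X)) := fun f =>
    ⟨fun j => ⟨f.1 j.1, hg f j⟩, fun j j' h => by
      apply Subtype.ext
      apply f.1.injective
      exact congrArg Subtype.val h⟩
  have hginj : Function.Injective g := by
    rintro ⟨f, h1, h2⟩ ⟨f', h1', h2'⟩ h
    apply Subtype.ext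
    ext j
    by_cases hj : j = i
    · subst hj
      exact h1.trans h1'.symm
    · have := DFunLike.congr_fun h ⟨j, hj⟩
      exact congrArg Subtype.val this
  have h1 := Fintype.card_le_of_injective g hginj
  rw [Fintype.card_subtype] at h1
  refine h1.trans (le_of_eq ?_)
  rw [Fintype.card_embedding_eq, Fintype.card_coe, card_compl, card_insert_of_notMem hx]
  congr 1
  · omega
  · rw [Fintype.card_subtype_compl, Fintype.card_subtype_eq]

end emb

section B1

variable {X : Type*} (W : Net X) {α : Type*} [Fintype X] [DecidableEq X] [Fintype α]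
  [DecidableEq α]

omit [Fintype X] [Fintype α] [DecidableEq α] [DecidableEq X] in
theorem pstart_inj {a D : ℕ} (hONE : ONE W a D) (w : ℕ → X → Bool) (x : X) :
    Function.Injective fun s : Fin D => pstart W a w s x := by
  intro s t h
  exact Fin.ext (hONE w x s s.2 t t.2 h)

/-- For fixed coins and a fixed set of times, few embeddings avoid the partners. -/
theorem card_avoid {a D : ℕ} (hONE : ONE W a D) (w : Fin D → X → Bool) (i : α)
    (J : Finset (Fin D)) :
    (univ.filter fun f : α ↪ X => ∀ s ∈ J, s ∉ mset W a f w i).card *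
        (Fintype.card X - 1) ^ J.card ≤
      (Fintype.card X - Fintype.card α) ^ J.card * Fintype.card (α ↪ X) := by
  set n := Fintype.card X
  set N := Fintype.card α
  have hN : 1 ≤ N := Fintype.card_pos_iff.2 ⟨i⟩
  let Y : X → Finset X := fun x => J.image fun s : Fin D => pstart W a (extN w) s x
  have hY : ∀ x, (Y x).card = J.card := fun x =>
    card_image_of_injective _ (pstart_inj W hONE (extN w) x)
  have hxY : ∀ x, x ∉ Y x := by
    intro x hx
    obtain ⟨s, -, hs⟩ := mem_image.1 hx
    exact pstart_ne W a _ _ x hs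
  have hsub : (univ.filter fun f : α ↪ X => ∀ s ∈ J, s ∉ mset W a f w i) ⊆
      univ.biUnion fun x => univ.filter fun f : α ↪ X => f i = x ∧ ∀ y ∈ Y x, ∀ j, f j ≠ y := by
    intro f hf
    rw [mem_filter] at hf
    rw [mem_biUnion]
    refine ⟨f i, mem_univ _, ?_⟩
    rw [mem_filter]
    refine ⟨mem_univ _, rfl, ?_⟩
    intro y hy j hj
    obtain ⟨s, hs, rfl⟩ := mem_image.1 hy
    exact hf.2 s hs ((mem_mset W).2 ⟨j, hj⟩)
  have h1 : (univ.filter fun f : α ↪ X => ∀ s ∈ J, s ∉ mset W a f w i).card ≤
      n * (n - 1 - J.card).descFactorial (N - 1) := by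
    refine (card_le_card hsub).trans (card_biUnion_le.trans ?_)
    calc ∑ x : X, (univ.filter fun f : α ↪ X => f i = x ∧ ∀ y ∈ Y x, ∀ j, f j ≠ y).card
        ≤ ∑ _x : X, (n - 1 - J.card).descFactorial (N - 1) := by
          refine sum_le_sum fun x _ => ?_
          have := card_emb_avoid i x (Y x) (hxY x)
          rwa [hY x] at this
      _ = _ := by rw [sum_const, card_univ, smul_eq_mul]
  have h2 : Fintype.card (α ↪ X) = n * (n - 1).descFactorial (N - 1) := by
    rw [Fintype.card_embedding_eq]
    change n.descFactorial N = _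
    rcases Nat.eq_zero_or_pos n with h0 | hpos
    · rw [h0, zero_mul]
      exact Nat.descFactorial_eq_zero_iff_lt.2 hN
    · obtain ⟨n', hn'⟩ : ∃ n', n = n' + 1 := ⟨n - 1, by omega⟩
      obtain ⟨N', hN'⟩ : ∃ N', N = N' + 1 := ⟨N - 1, by omega⟩
      rw [hn', hN', Nat.succ_descFactorial_succ]
      rfl
  calc _ ≤ (n * (n - 1 - J.card).descFactorial (N - 1)) * (n - 1) ^ J.card :=
        Nat.mul_le_mul_right _ h1
    _ = n * ((n - 1 - J.card).descFactorial (N - 1) * (n - 1) ^ J.card) := by ring
    _ ≤ n * ((n - 1 - (N - 1)) ^ J.card * (n - 1).descFactorial (N - 1)) :=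
        Nat.mul_le_mul_left _ (desc_ineq _ _ _)
    _ = _ := by
        rw [h2, show n - 1 - (N - 1) = n - N by omega]
        ring

/-- For fixed coins, few embeddings have few meets on the path of `i`. -/
theorem card_few {a D k : ℕ} (hONE : ONE W a D) (w : Fin D → X → Bool) (i : α) (hk : k ≤ D) :
    (univ.filter fun f : α ↪ X => (mset W a f w i).card < k).card *
        (Fintype.card X - 1) ^ (D + 1 - k) ≤
      D.choose (D + 1 - k) * ((Fintype.card X - Fintype.card α) ^ (D + 1 - k) *
        Fintype.card (α ↪ X)) := by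
  have hsub : (univ.filter fun f : α ↪ X => (mset W a f w i).card < k) ⊆
      (powersetCard (D + 1 - k) (univ : Finset (Fin D))).biUnion fun J =>
        univ.filter fun f : α ↪ X => ∀ s ∈ J, s ∉ mset W a f w i := by
    intro f hf
    rw [mem_filter] at hf
    have h1 : D + 1 - k ≤ ((mset W a f w i)ᶜ).card := by
      rw [card_compl, Fintype.card_fin]
      have := hf.2
      omega
    obtain ⟨J, hJ, hJc⟩ := exists_subset_card_eq h1
    rw [mem_biUnion]
    refine ⟨J, mem_powersetCard.2 ⟨subset_univ _, hJc⟩, ?_⟩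
    rw [mem_filter]
    refine ⟨mem_univ _, fun s hs => ?_⟩
    have := hJ hs
    rwa [mem_compl] at this
  calc _ ≤ (∑ J ∈ powersetCard (D + 1 - k) (univ : Finset (Fin D)),
          (univ.filter fun f : α ↪ X => ∀ s ∈ J, s ∉ mset W a f w i).card) *
            (Fintype.card X - 1) ^ (D + 1 - k) :=
        Nat.mul_le_mul_right _ ((card_le_card hsub).trans card_biUnion_le)
    _ = ∑ J ∈ powersetCard (D + 1 - k) (univ : Finset (Fin D)),
          (univ.filter fun f : α ↪ X => ∀ s ∈ J, s ∉ mset W a f w i).card *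
            (Fintype.card X - 1) ^ (D + 1 - k) := by rw [sum_mul]
    _ ≤ ∑ _J ∈ powersetCard (D + 1 - k) (univ : Finset (Fin D)),
          (Fintype.card X - Fintype.card α) ^ (D + 1 - k) * Fintype.card (α ↪ X) := by
        refine sum_le_sum fun J hJ => ?_
        have := card_avoid W hONE w i J
        rwa [(mem_powersetCard.1 hJ).2] at this
    _ = _ := by rw [sum_const, card_powersetCard, card_univ, Fintype.card_fin, smul_eq_mul]

open Classical in
/-- **Bad geometries are rare** (B1), counting form. -/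
theorem card_bad {a D k : ℕ} (hONE : ONE W a D) (hk1 : 1 ≤ k) (hk : k ≤ D) :
    (univ.filter fun p : (α ↪ X) × (Fin D → X → Bool) => ¬ Good W a D k p.1 p.2).card *
        (Fintype.card X - 1) ^ (D + 1 - k) ≤
      Fintype.card α * (2 ^ (k - 1) * (D.choose (D + 1 - k) *
        ((Fintype.card X - Fintype.card α) ^ (D + 1 - k) *
          Fintype.card ((α ↪ X) × (Fin D → X → Bool))))) := by
  set P := (α ↪ X) × (Fin D → X → Bool)
  let G : α → Finset P := fun i => univ.filter fun p : P => (mset W a p.1 p.2 i).card < k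
  have hsub : (univ.filter fun p : P => ¬ Good W a D k p.1 p.2) ⊆
      univ.biUnion fun i : α => (G i).biUnion fun p =>
        (mset W a p.1 p.2 i).powerset.image fun T => ((p.1, flip W a p.2 (p.1 i) T) : P) := by
    rintro ⟨f, r⟩ hp
    rw [mem_filter] at hp
    have hbad := hp.2
    unfold Good at hbad
    push Not at hbad
    obtain ⟨e, i, hei⟩ := hbad
    obtain ⟨w, hw, T, hT, hr⟩ := exists_flip W hei
    rw [mem_biUnion]
    refine ⟨i, mem_univ _, ?_⟩
    rw [mem_biUnion]
    refine ⟨(f, w), ?_, ?_⟩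
    · rw [mem_filter]; exact ⟨mem_univ _, hw⟩
    · rw [mem_image]
      exact ⟨T, mem_powerset.2 hT, Prod.ext rfl hr.symm⟩
  have hG : ∀ i, (G i).card * (Fintype.card X - 1) ^ (D + 1 - k) ≤
      D.choose (D + 1 - k) * ((Fintype.card X - Fintype.card α) ^ (D + 1 - k) *
        Fintype.card P) := by
    intro i
    have h1 : (G i).card = ∑ w : Fin D → X → Bool,
        (univ.filter fun f : α ↪ X => (mset W a f w i).card < k).card := by
      have : (G i).card = ∑ p : P, if (mset W a p.1 p.2 i).card < k then 1 else 0 := by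
        rw [card_filter]
      rw [this, Fintype.sum_prod_type, sum_comm]
      refine sum_congr rfl fun w _ => ?_
      rw [card_filter]
    rw [h1, sum_mul]
    calc _ ≤ ∑ _w : Fin D → X → Bool, D.choose (D + 1 - k) *
          ((Fintype.card X - Fintype.card α) ^ (D + 1 - k) * Fintype.card (α ↪ X)) :=
          sum_le_sum fun w _ => card_few W hONE w i hk
      _ = _ := by
          rw [sum_const, card_univ, smul_eq_mul, Fintype.card_prod]
          ring
  have hcard : (univ.filter fun p : P => ¬ Good W a D k p.1 p.2).card ≤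
      ∑ i : α, (G i).card * 2 ^ (k - 1) := by
    refine (card_le_card hsub).trans (card_biUnion_le.trans (sum_le_sum fun i _ => ?_))
    refine card_biUnion_le.trans ?_
    rw [← smul_eq_mul, ← sum_const]
    refine sum_le_sum fun p hp => ?_
    refine card_image_le.trans ?_
    rw [card_powerset]
    have := (mem_filter.1 hp).2
    exact Nat.pow_le_pow_right (by norm_num) (by omega)
  calc _ ≤ (∑ i : α, (G i).card * 2 ^ (k - 1)) * (Fintype.card X - 1) ^ (D + 1 - k) :=
        Nat.mul_le_mul_right _ hcard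
    _ = ∑ i : α, 2 ^ (k - 1) * ((G i).card * (Fintype.card X - 1) ^ (D + 1 - k)) := by
        rw [sum_mul]; exact sum_congr rfl fun i _ => by ring
    _ ≤ ∑ _i : α, 2 ^ (k - 1) * (D.choose (D + 1 - k) *
          ((Fintype.card X - Fintype.card α) ^ (D + 1 - k) * Fintype.card P)) :=
        sum_le_sum fun i _ => Nat.mul_le_mul_left _ (hG i)
    _ = _ := by rw [sum_const, card_univ, smul_eq_mul]

open Classical in
/-- **Bad geometries are rare** (B1), average form. -/
theorem avg_bad {a D k : ℕ} (hONE : ONE W a D) (hk1 : 1 ≤ k) (hk : k ≤ D)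
    (hX : 2 ≤ Fintype.card X) (hα : Fintype.card α ≤ Fintype.card X) :
    (avg fun f : α ↪ X => avg fun r : Fin D → X → Bool =>
      if Good W a D k f r then (0 : ℝ) else 1) ≤
      Fintype.card α * 2 ^ (k - 1) * D.choose (D + 1 - k) *
        (((Fintype.card X : ℝ) - Fintype.card α) / (Fintype.card X - 1)) ^ (D + 1 - k) := by
  have h := card_bad (α := α) W hONE hk1 hk
  set n := Fintype.card X
  set N := Fintype.card α
  have hne : Nonempty (α ↪ X) := Function.Embedding.nonempty_of_card_le hα
  have : Nonempty (Fin D → X → Bool) := ⟨fun _ _ => false⟩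
  have hc0 : 0 < Fintype.card ((α ↪ X) × (Fin D → X → Bool)) := Fintype.card_pos
  have e1 : (avg fun f : α ↪ X => avg fun r : Fin D → X → Bool =>
      if Good W a D k f r then (0 : ℝ) else 1) =
      ((univ.filter fun p : (α ↪ X) × (Fin D → X → Bool) =>
        ¬ Good W a D k p.1 p.2).card : ℝ) / Fintype.card ((α ↪ X) × (Fin D → X → Bool)) := by
    rw [← avg_prod (fun p : (α ↪ X) × (Fin D → X → Bool) =>
      if Good W a D k p.1 p.2 then (0 : ℝ) else 1), avg]
    congr 1
    rw [card_filter]
    push_cast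
    refine sum_congr rfl fun p _ => ?_
    by_cases hp : Good W a D k p.1 p.2 <;> simp [hp]
  rw [e1, div_le_iff₀ (by exact_mod_cast hc0)]
  have hn1 : (0 : ℝ) < (n : ℝ) - 1 := by
    have : (2 : ℝ) ≤ n := by exact_mod_cast hX
    linarith
  have hcast : (((n - 1 : ℕ) : ℝ)) = (n : ℝ) - 1 := by
    rw [Nat.cast_sub (by omega)]; simp
  have hcast2 : (((n - N : ℕ) : ℝ)) = (n : ℝ) - N := Nat.cast_sub hα
  have hR : ((univ.filter fun p : (α ↪ X) × (Fin D → X → Bool) =>
        ¬ Good W a D k p.1 p.2).card : ℝ) * ((n : ℝ) - 1) ^ (D + 1 - k) ≤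
      N * (2 ^ (k - 1) * (D.choose (D + 1 - k) *
        (((n : ℝ) - N) ^ (D + 1 - k) * Fintype.card ((α ↪ X) × (Fin D → X → Bool))))) := by
    rw [← hcast, ← hcast2]
    exact_mod_cast h
  rw [div_pow]
  rw [← le_div_iff₀ (by positivity)] at hR
  refine hR.trans (le_of_eq ?_)
  field_simp

end B1

end Vale.Agent.P162.H790
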