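import Vale.Agent.P162.S2.Col2
import Vale.Agent.P162.H175.Match
import Vale.Agent.P162.H790.Count

/-!
# The data of the abstract theorem for a generic network (P162, part B3)
-/

namespace Vale.Agent.P162.H790

open Equiv Finset
open Vale.Agent.P162.S2 Vale.Agent.P162.S2.Abs
open scoped InnerProductSpace

/-! ### Averages of vectors -/

section vavg
variable {H : Type*} [NormedAddCommGroup H] [InnerProductSpace ℝ H] {E : Type*} [Fintype E]

/-- The average of vectors. -/
noncomputable def vavg (v : E → H) : H := (Fintype.card E : ℝ)⁻¹ • ∑ e, v e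

theorem avg_inner_left (v : E → H) (x : H) : avg (fun e => ⟪v e, x⟫_ℝ) = ⟪vavg v, x⟫_ℝ := by
  rw [vavg, inner_smul_left, sum_inner, avg, div_eq_inv_mul]
  rfl

theorem avg_inner_right (v : E → H) (x : H) : avg (fun e => ⟪x, v e⟫_ℝ) = ⟪x, vavg v⟫_ℝ := by
  rw [vavg, inner_smul_right, inner_sum, avg, div_eq_inv_mul]

theorem avg_avg_inner (v : E → H) :
    (avg fun e => avg fun e' => ⟪v e', v e⟫_ℝ) = ‖vavg v‖ ^ 2 := by
  simp only [avg_inner_left, avg_inner_right, real_inner_self_eq_norm_sq]

theorem norm_vavg_le {v : E → H} {C : ℝ} (hC : 0 ≤ C) (h : ∀ e, ‖v e‖ ≤ C) : ‖vavg v‖ ≤ C := by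
  rcases isEmpty_or_nonempty E with hE | hE
  · simp [vavg, hC]
  · have hc : (0 : ℝ) < Fintype.card E := by exact_mod_cast Fintype.card_pos
    rw [vavg, norm_smul, norm_inv, Real.norm_of_nonneg hc.le, inv_mul_le_iff₀ hc]
    refine (norm_sum_le _ _).trans ?_
    calc ∑ e, ‖v e‖ ≤ ∑ _e : E, C := sum_le_sum fun e _ => h e
      _ = _ := by simp

theorem vavg_map (A : H →ₗ[ℝ] H) (v : E → H) : vavg (fun e => A (v e)) = A (vavg v) := by
  rw [vavg, vavg, map_smul, map_sum]

theorem vavg_equiv {E' : Type*} [Fintype E'] (σ : E ≃ E') (v : E' → H) :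
    vavg (fun e => v (σ e)) = vavg v := by
  rw [vavg, vavg, Fintype.card_congr σ, Equiv.sum_comp σ v]

theorem vavg_prod {E' : Type*} [Fintype E'] (v : E × E' → H) :
    vavg v = vavg fun e => vavg fun e' => v (e, e') := by
  simp only [vavg, Fintype.sum_prod_type, Fintype.card_prod, Nat.cast_mul, mul_inv, ← smul_sum,
    smul_smul]

theorem vavg_cons {C : Type*} [Fintype C] (L : ℕ) (v : (Fin (L + 1) → C) → H) :
    vavg v = vavg fun t : Fin L → C => vavg fun c : C => v (Fin.cons c t) := by
  rw [← vavg_equiv (Fin.consEquiv fun _ : Fin (L + 1) => C) v,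
    ← vavg_equiv (Equiv.prodComm _ _), vavg_prod]
  rfl

theorem vavg_flip {X : Type*} [Fintype X] [DecidableEq X] (z : X) (v : (X → Bool) → H) :
    vavg v = vavg fun c => (1 / 2 : ℝ) • (v c + v (Function.update c z (!c z))) := by
  have hinv : Function.Involutive (fun c : X → Bool => Function.update c z (!c z)) := by
    intro c
    funext x
    by_cases hx : x = z
    · subst hx; simp
    · simp [hx]
  have h1 : vavg (fun c => v (Function.update c z (!c z))) = vavg v :=
    vavg_equiv (Function.Involutive.toPerm _ hinv) v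
  have h2 : vavg (fun c => (1 / 2 : ℝ) • (v c + v (Function.update c z (!c z)))) =
      (1 / 2 : ℝ) • (vavg v + vavg (fun c => v (Function.update c z (!c z)))) := by
    simp only [vavg, ← smul_sum, sum_add_distrib, smul_add, smul_comm (1 / 2 : ℝ)]
  rw [h2, h1, ← two_smul ℝ (vavg v), smul_smul]
  norm_num

end vavg

/-! ### The hidden permutation of the first step -/

section step
variable {X : Type*} (W : Net X) {α : Type*}

/-- The first hidden step splits off. -/
theorem hid_first (a : ℕ) (f : α ↪ X) : ∀ (L : ℕ) (r : Fin (L + 1) → X → Bool),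
    ∃ G : (Fin L → X → Bool) → Perm α, ∀ e : Fin (L + 1) → X → Bool,
      W.hid a (L + 1) f r e = G (Fin.tail e) * W.hstep a f (e 0)
  | 0, r => ⟨fun _ => 1, fun e => by
      rw [Net.hid, Net.hid, mul_one, one_mul]
      have h1 : Net.mov (W.pos a 0 (Fin.init r)) f = f := Net.mov_one f
      rw [h1]
      rfl⟩
  | L + 1, r => by
    obtain ⟨G, hG⟩ := hid_first a f L (Fin.init r)
    refine ⟨fun t => W.hstep (a + (L + 1)) (Net.mov (W.pos a (L + 1) (Fin.init r)) f)
      (t (Fin.last L)) * G (Fin.init t), fun e => ?_⟩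
    rw [Net.hid, hG, mul_assoc]
    rfl

variable [DecidableEq α]

/-- The product of the swaps of the lines `a ∈ A` with their partners. -/
noncomputable def sprod (s : ℕ) (f : α ↪ X) (c : X → Bool) (A : List α) : Perm α :=
  (A.map fun a => if c (W.rep s (f a)) = true then swap a (W.partner s f a) else 1).prod

/-- Different switches. -/
def Sep (s : ℕ) (f : α ↪ X) (A : List α) : Prop :=
  A.Pairwise fun a b => a ≠ b ∧ W.partner s f a ≠ b

theorem sprod_cons (s : ℕ) (f : α ↪ X) (c : X → Bool) (a : α) (A : List α) :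
    sprod W s f c (a :: A) =
      (if c (W.rep s (f a)) = true then swap a (W.partner s f a) else 1) * sprod W s f c A := by
  simp [sprod]

theorem sprod_apply {s : ℕ} {f : α ↪ X} {c : X → Bool} {A : List α} (hA : Sep W s f A) (x : α) :
    sprod W s f c A x = if (x ∈ A ∨ W.partner s f x ∈ A) ∧ c (W.rep s (f x)) = true then
      W.partner s f x else x := by
  induction A with
  | nil => simp [sprod]
  | cons a A ih =>
    rw [Sep, List.pairwise_cons] at hA
    obtain ⟨h1, h2⟩ := hA
    have ha : a ∉ A := fun h => (h1 a h).1 rfl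
    have hpa : W.partner s f a ∉ A := fun h => (h1 _ h).2 rfl
    rw [sprod_cons, Perm.mul_apply, ih h2]
    by_cases hx : x = a
    · subst hx
      have : ¬ ((x ∈ A ∨ W.partner s f x ∈ A) ∧ c (W.rep s (f x)) = true) := by tauto
      rw [if_neg this]
      by_cases hc : c (W.rep s (f x)) = true
      · simp [hc]
      · simp [hc]
    · by_cases hpx : W.partner s f x = a
      · have hx' : x = W.partner s f a := by rw [← hpx, W.partner_partner]
        have : ¬ ((x ∈ A ∨ W.partner s f x ∈ A) ∧ c (W.rep s (f x)) = true) := by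
          rw [hpx, hx']; tauto
        rw [if_neg this]
        have hr : W.rep s (f x) = W.rep s (f a) := by rw [hx', W.rep_partner]
        by_cases hc : c (W.rep s (f a)) = true
        · rw [if_pos hc, hr, if_pos ⟨Or.inr (by simp [hpx]), hc⟩, ← hx', swap_apply_right, hpx]
        · rw [if_neg hc, hr, if_neg (by tauto)]
          rfl
      · have hfix : ∀ y : α, y ≠ a → y ≠ W.partner s f a →
            (if c (W.rep s (f a)) = true then swap a (W.partner s f a) else 1) y = y := by
          intro y hy1 hy2
          split_ifs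
          · exact swap_apply_of_ne_of_ne hy1 hy2
          · rfl
        have hxp : x ≠ W.partner s f a := by
          intro h
          apply hpx
          rw [h, W.partner_partner]
        have hpp : W.partner s f x ≠ W.partner s f a := by
          intro h
          apply hx
          rw [← W.partner_partner s f x, h, W.partner_partner]
        have hmem : (x ∈ a :: A ∨ W.partner s f x ∈ a :: A) ↔ (x ∈ A ∨ W.partner s f x ∈ A) := by
          simp [hx, hpx]
        by_cases h : (x ∈ A ∨ W.partner s f x ∈ A) ∧ c (W.rep s (f x)) = true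
        · have h' : (x ∈ a :: A ∨ W.partner s f x ∈ a :: A) ∧ c (W.rep s (f x)) = true :=
            ⟨hmem.2 h.1, h.2⟩
          rw [if_pos h, hfix _ hpx hpp, if_pos h']
        · have h' : ¬ ((x ∈ a :: A ∨ W.partner s f x ∈ a :: A) ∧ c (W.rep s (f x)) = true) :=
            fun h' => h ⟨hmem.1 h'.1, h'.2⟩
          rw [if_neg h, hfix _ hx hxp, if_neg h']

omit [DecidableEq α] in
theorem rep_ne_of_sep {s : ℕ} {f : α ↪ X} {a b : α} (h : a ≠ b) (h' : W.partner s f a ≠ b) :
    W.rep s (f b) ≠ W.rep s (f a) := by
  intro hr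
  rcases (W.rep_eq s _ _).1 hr.symm with h1 | h1
  · exact h (f.injective h1).symm
  · exact h' (Net.partner_of h1)

theorem sprod_update [DecidableEq X] {s : ℕ} {f : α ↪ X} {c : X → Bool} {A : List α} {z : X}
    {v : Bool} (h : ∀ a ∈ A, W.rep s (f a) ≠ z) :
    sprod W s f (Function.update c z v) A = sprod W s f c A := by
  unfold sprod
  congr 1
  refine List.map_congr_left fun a ha => ?_
  rw [Function.update_of_ne (h a ha)]

variable [Fintype X] [DecidableEq X] [Fintype α]

/-- The average over the coins of the products of swaps is the projection `PM`. -/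
theorem vavg_sprod {s : ℕ} {f : α ↪ X} {A : List α} (hA : Sep W s f A) (F : FS α) :
    vavg (fun c : X → Bool => lt (sprod W s f c A) F) =
      PM (A.map fun a => (a, W.partner s f a)) F := by
  induction A with
  | nil =>
    simp only [sprod, List.map_nil, List.prod_nil, PM_nil, vavg]
    rw [sum_const, card_univ, ← Nat.cast_smul_eq_nsmul ℝ, smul_smul, inv_mul_cancel₀, one_smul,
      lt_one]
    exact_mod_cast Fintype.card_ne_zero
  | cons a A ih =>
    rw [Sep, List.pairwise_cons] at hA
    obtain ⟨h1, h2⟩ := hA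
    have hne : ∀ b ∈ A, W.rep s (f b) ≠ W.rep s (f a) := fun b hb =>
      rep_ne_of_sep W (h1 b hb).1 (h1 b hb).2
    rw [List.map_cons, PM_cons_apply, ← ih h2, vavg_flip (W.rep s (f a)), ← vavg_map]
    congr 1
    funext c
    rw [sprod_cons, sprod_cons, sprod_update W hne, Function.update_self, Te_apply, ← lt_lt,
      ← lt_lt]
    cases hc : c (W.rep s (f a))
    · simp [lt_one]
    · simp [lt_one, add_comm]

/-! ### The matching of the first step -/

/-- One line of each switch with two lines. -/
noncomputable def mlist (s : ℕ) (f : α ↪ X) : List α :=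
  (univ.filter fun a : α =>
    Fintype.equivFin α a < Fintype.equivFin α (W.partner s f a)).toList

omit [Fintype X] [DecidableEq X] [DecidableEq α] in
theorem mem_mlist {s : ℕ} {f : α ↪ X} {a : α} :
    a ∈ mlist W s f ↔ Fintype.equivFin α a < Fintype.equivFin α (W.partner s f a) := by
  simp [mlist]

omit [Fintype X] [DecidableEq X] [DecidableEq α] in
theorem sep_mlist (s : ℕ) (f : α ↪ X) : Sep W s f (mlist W s f) := by
  have h := Finset.nodup_toList (univ.filter fun a : α =>
    Fintype.equivFin α a < Fintype.equivFin α (W.partner s f a))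
  change (mlist W s f).Nodup at h
  unfold Sep
  refine List.Pairwise.imp_of_mem ?_ h
  intro a b ha hb hab
  refine ⟨hab, ?_⟩
  intro hp
  rw [mem_mlist] at ha hb
  rw [← hp, W.partner_partner] at hb
  exact lt_asymm ha hb

omit [Fintype X] [DecidableEq X] [DecidableEq α] in
theorem isMatching_mlist (s : ℕ) (f : α ↪ X) :
    IsMatching ((mlist W s f).map fun a => (a, W.partner s f a)) := by
  rw [IsMatching, List.nodup_flatMap]
  constructor
  · intro e he
    rw [List.mem_map] at he
    obtain ⟨a, ha, rfl⟩ := he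
    rw [mem_mlist] at ha
    have : a ≠ W.partner s f a := by
      intro h
      rw [← h] at ha
      exact lt_irrefl _ ha
    simpa using this
  · rw [List.pairwise_map]
    refine (sep_mlist W s f).imp ?_
    rintro a b ⟨h1, h2⟩
    simp only [Function.onFun, List.disjoint_cons_left, List.mem_cons, List.not_mem_nil, or_false,
      not_or]
    refine ⟨⟨h1, ?_⟩, ⟨h2, ?_⟩, by simp⟩
    · intro h
      apply h2
      rw [h, W.partner_partner]
    · intro h
      apply h1
      rw [← W.partner_partner s f a, h, W.partner_partner]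

omit [Fintype X] [DecidableEq X] in
theorem hstep_eq_sprod (s : ℕ) (f : α ↪ X) (c : X → Bool) :
    W.hstep s f c = sprod W s f c (mlist W s f) := by
  ext1 x
  rw [sprod_apply W (sep_mlist W s f), Net.hstep_apply]
  by_cases hp : W.partner s f x = x
  · rw [hp]; simp
  · have h1 : Fintype.equivFin α x < Fintype.equivFin α (W.partner s f x) ∨
        Fintype.equivFin α (W.partner s f x) < Fintype.equivFin α x := by
      apply lt_or_gt_of_ne
      intro h
      exact hp ((Fintype.equivFin α).injective h).symm
    have h2 : x ∈ mlist W s f ∨ W.partner s f x ∈ mlist W s f := by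
      rwa [mem_mlist, mem_mlist, W.partner_partner]
    by_cases hc : c (W.rep s (f x)) = true
    · rw [if_pos hc, if_pos ⟨h2, hc⟩]
    · rw [if_neg hc, if_neg (fun h => hc h.2)]

theorem length_mlist (s : ℕ) (f : α ↪ X) :
    2 * Fintype.card α ≤ 2 * (mlist W s f).length + Fintype.card X := by
  classical
  have h0 : (mlist W s f).length = (univ.filter fun a : α =>
      Fintype.equivFin α a < Fintype.equivFin α (W.partner s f a)).card := by
    rw [mlist, length_toList]
  -- the other half
  have h1 : (univ.filter fun a : α =>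
      Fintype.equivFin α (W.partner s f a) < Fintype.equivFin α a).card ≤
      (mlist W s f).length := by
    rw [h0]
    apply card_le_card_of_injOn (W.partner s f)
    · intro a ha
      simp only [coe_filter, mem_univ, true_and, Set.mem_ofPred_eq] at ha ⊢
      rw [W.partner_partner]
      exact ha
    · intro a _ b _ hab
      rw [← W.partner_partner s f a, hab, W.partner_partner]
  -- lines without partner
  have h2 : (univ.filter fun a : α => W.partner s f a = a).card + Fintype.card α ≤
      Fintype.card X := by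
    have h3 : (univ.filter fun a : α => W.partner s f a = a).card ≤
        (univ \ univ.map f : Finset X).card := by
      apply card_le_card_of_injOn (fun a => W.nb s (f a))
      · intro a ha
        simp only [coe_filter, mem_univ, true_and, Set.mem_ofPred_eq] at ha
        simp only [coe_sdiff, Set.mem_sdiff, mem_coe, mem_univ, true_and, mem_map]
        rintro ⟨b, hb⟩
        have := Net.partner_of hb
        rw [ha] at this
        subst this
        exact W.nb_ne s _ hb.symm
      · intro a _ b _ hab
        have h4 : W.nb s (f a) = W.nb s (f b) := hab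
        have h5 : f a = f b := by rw [← W.nb_nb s (f a), h4, W.nb_nb]
        exact f.injective h5
    rw [card_sdiff_of_subset (subset_univ _), card_map, card_univ, card_univ] at h3
    have h4 : Fintype.card α ≤ Fintype.card X := Fintype.card_le_of_embedding f
    omega
  have h3 : Fintype.card α ≤ (univ.filter fun a : α => W.partner s f a = a).card +
      ((univ.filter fun a : α =>
        Fintype.equivFin α a < Fintype.equivFin α (W.partner s f a)).card +
      (univ.filter fun a : α =>
        Fintype.equivFin α (W.partner s f a) < Fintype.equivFin α a).card) := by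
    refine (card_univ (α := α)).symm.le.trans ((card_le_card ?_).trans
      ((card_union_le _ _).trans (Nat.add_le_add_left (card_union_le _ _) _)))
    intro a _
    simp only [mem_union, mem_filter, mem_univ, true_and]
    by_cases hp : W.partner s f a = a
    · exact Or.inl hp
    · right
      apply lt_or_gt_of_ne
      intro h
      exact hp ((Fintype.equivFin α).injective h).symm
  omega

/-- The averaged hidden permutation contracts to the projection of the first matching. -/
theorem norm_vavg_hid_le {D : ℕ} (hD : 1 ≤ D) (f : α ↪ X) (r : Fin D → X → Bool) (F : FS α) :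
    ‖vavg (fun e : Fin D → X → Bool => lt (W.hid 0 D f r e) F)‖ ^ 2 ≤
      ⟪PM ((mlist W 0 f).map fun a => (a, W.partner 0 f a)) F, F⟫_ℝ := by
  obtain ⟨L, rfl⟩ : ∃ L, D = L + 1 := ⟨D - 1, by omega⟩
  obtain ⟨G, hG⟩ := hid_first W 0 f L r
  have h1 : vavg (fun e : Fin (L + 1) → X → Bool => lt (W.hid 0 (L + 1) f r e) F) =
      vavg (fun t : Fin L → X → Bool =>
        lt (G t) (PM ((mlist W 0 f).map fun a => (a, W.partner 0 f a)) F)) := by
    rw [vavg_cons]
    congr 1
    funext t
    rw [← vavg_sprod W (sep_mlist W 0 f), ← vavg_map]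
    congr 1
    funext c
    rw [hG, ← lt_lt, ← hstep_eq_sprod, Fin.tail_cons, Fin.cons_zero]
  have hcomm := (isMatching_mlist W 0 f).comm
  rw [h1, inner_PM_self hcomm, PM_eq_starProjection hcomm]
  have h2 : ‖vavg (fun t : Fin L → X → Bool =>
        lt (G t) (PM ((mlist W 0 f).map fun a => (a, W.partner 0 f a)) F))‖ ≤
      ‖PM ((mlist W 0 f).map fun a => (a, W.partner 0 f a)) F‖ := by
    apply norm_vavg_le (norm_nonneg _)
    intro t
    rw [← sq_le_sq₀ (norm_nonneg _) (norm_nonneg _), ← real_inner_self_eq_norm_sq, inner_lt,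
      real_inner_self_eq_norm_sq]
  gcongr

/-! ### The law `qlaw` -/

/-- The quadratic form of `qlaw`. -/
theorem inner_op_qlaw (D : ℕ) (ω : (α ↪ X) → (Fin D → X → Bool) → ℝ) (F : FS α) :
    ⟪op (W.qlaw D ω) F, F⟫_ℝ = avg fun f : α ↪ X => avg fun r : Fin D → X → Bool =>
      ω f r * ‖vavg (fun e : Fin D → X → Bool => lt (W.hid 0 D f r e) F)‖ ^ 2 := by
  have h1 : ⟪op (W.qlaw D ω) F, F⟫_ℝ = ∑ g, W.qlaw D ω g * ⟪lt g F, F⟫_ℝ := by
    rw [op, LinearMap.sum_apply, sum_inner]
    refine sum_congr rfl fun g _ => ?_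
    rw [LinearMap.smul_apply, inner_smul_left]
    rfl
  rw [h1, W.sum_qlaw_mul]
  refine avg_congr fun f => avg_congr fun r => ?_
  rw [W.sum_geo2_mul, ← avg_avg_inner]
  congr 1
  refine avg_congr fun e => avg_congr fun e' => ?_
  rw [← lt_lt, inner_lt_left, inv_inv]

open Classical in
/-- The indicator of the good geometries. -/
noncomputable def gInd (D k : ℕ) (f : α ↪ X) (r : Fin D → X → Bool) : ℝ :=
  if Good W 0 D k f r then 1 else 0

omit [DecidableEq α] [Fintype X] [DecidableEq X] [Fintype α] in
theorem gInd_nonneg (D k : ℕ) (f : α ↪ X) (r : Fin D → X → Bool) : 0 ≤ gInd W D k f r := by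
  unfold gInd; split_ifs <;> norm_num

omit [DecidableEq α] [Fintype X] [DecidableEq X] [Fintype α] in
theorem gInd_le_one (D k : ℕ) (f : α ↪ X) (r : Fin D → X → Bool) : gInd W D k f r ≤ 1 := by
  unfold gInd; split_ifs <;> norm_num

omit [DecidableEq α] [Fintype X] [DecidableEq X] [Fintype α] in
theorem gInd_relab (D k : ℕ) (τ : Perm α) (f : α ↪ X) (r : Fin D → X → Bool) :
    gInd W D k (Net.relab τ f) r = gInd W D k f r := by
  unfold gInd
  have h : Good W 0 D k (Net.relab τ f) r ↔ Good W 0 D k f r := good_relabel W 0 D k f τ r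
  by_cases hg : Good W 0 D k f r
  · rw [if_pos hg, if_pos (h.2 hg)]
  · rw [if_neg hg, if_neg (fun h' => hg (h.1 h'))]

/-- Most geometries are good (average form of B1). -/
theorem one_sub_gInd_le {D k : ℕ} (hONE : ONE W 0 D) (hk1 : 1 ≤ k) (hk : k ≤ D)
    (hX : 2 ≤ Fintype.card X) (hα : Fintype.card α ≤ Fintype.card X) :
    (1 - avg fun f : α ↪ X => avg fun r : Fin D → X → Bool => gInd W D k f r) ≤
      Fintype.card α * 2 ^ (k - 1) * D.choose (D + 1 - k) *
        (((Fintype.card X : ℝ) - Fintype.card α) / (Fintype.card X - 1)) ^ (D + 1 - k) := by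
  classical
  have hne : Nonempty (α ↪ X) := Function.Embedding.nonempty_of_card_le hα
  have : Nonempty (Fin D → X → Bool) := ⟨fun _ _ => false⟩
  refine le_trans (le_of_eq ?_) (avg_bad (α := α) W hONE hk1 hk hX hα)
  have h1 : (avg fun _ : α ↪ X => avg fun _ : Fin D → X → Bool => (1 : ℝ)) = 1 := by
    simp only [avg_const]
  have h2 : (avg fun f : α ↪ X => avg fun r : Fin D → X → Bool => 1 - gInd W D k f r) =
      1 - avg fun f : α ↪ X => avg fun r : Fin D → X → Bool => gInd W D k f r := by
    simp only [avg_sub, avg_const]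
  rw [← h2]
  refine avg_congr fun f => avg_congr fun r => ?_
  unfold gInd
  split_ifs <;> norm_num

/-- The loop bound for `qlaw`. -/
theorem fix_le {D k : ℕ} (hUP : UP W 0 D) (S : Finset α) :
    (∑ g with ∀ a ∈ S, g a = a, W.qlaw D (gInd W D k) g) ≤ ((√(1 / 2 : ℝ)) ^ k) ^ S.card := by
  have hs0 : (0 : ℝ) ≤ √(1 / 2 : ℝ) := Real.sqrt_nonneg _
  have h1 : (∑ g with ∀ a ∈ S, g a = a, W.qlaw D (gInd W D k) g) =
      ∑ g : Perm α, W.qlaw D (gInd W D k) g * (if ∀ a ∈ S, g a = a then 1 else 0) := by
    rw [sum_filter]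
    refine sum_congr rfl fun g _ => ?_
    split_ifs <;> simp
  rw [h1, W.sum_qlaw_mul]
  refine Net.avg_le_of_le (by positivity) fun f => Net.avg_le_of_le (by positivity) fun r => ?_
  unfold gInd
  by_cases hg : Good W 0 D k f r
  · rw [if_pos hg, one_mul, W.sum_geo2_mul]
    set t := (k * S.card + 1) / 2 with ht
    have h2 := loops W hUP hg S (t := t) (by omega)
    have h3 : (avg fun e : Fin D → X → Bool => avg fun e' : Fin D → X → Bool =>
        if ∀ a ∈ S, ((W.hid 0 D f r e)⁻¹ * W.hid 0 D f r e') a = a then (1 : ℝ) else 0) =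
        avg fun e : Fin D → X → Bool => avg fun e' : Fin D → X → Bool =>
          if ∀ i ∈ S, W.hid 0 D f r e i = W.hid 0 D f r e' i then (1 : ℝ) else 0 := by
      refine avg_congr fun e => avg_congr fun e' => ?_
      have : (∀ a ∈ S, ((W.hid 0 D f r e)⁻¹ * W.hid 0 D f r e') a = a) ↔
          ∀ i ∈ S, W.hid 0 D f r e i = W.hid 0 D f r e' i := by
        refine forall₂_congr fun a _ => ?_
        rw [Perm.mul_apply, Perm.inv_eq_iff_eq, eq_comm]
      simp only [this]
    have h5 : (avg fun e : Fin D → X → Bool => avg fun e' : Fin D → X → Bool =>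
        if ∀ a ∈ S, ((W.hid 0 D f r e)⁻¹ * W.hid 0 D f r e') a = a then (1 : ℝ) else 0) ≤
        (1 / 2) ^ t := by
      rw [h3]
      convert h2
    refine h5.trans ?_
    have h4 : (1 / 2 : ℝ) = √(1 / 2 : ℝ) ^ 2 := (Real.sq_sqrt (by norm_num)).symm
    calc (1 / 2 : ℝ) ^ t = √(1 / 2 : ℝ) ^ (2 * t) := by rw [pow_mul, ← h4]
      _ ≤ √(1 / 2 : ℝ) ^ (k * S.card) := by
        apply pow_le_pow_of_le_one hs0
        · rw [Real.sqrt_le_left zero_le_one]; norm_num
        · omega
      _ = _ := pow_mul _ _ _
  · rw [if_neg hg, zero_mul]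
    positivity

/-- The matching part of the data, for any network: the matching of the first step has at least
`N - n / 2` pairs. -/
theorem qlaw_matching {X : Type} [Fintype X] [DecidableEq X] (W : Net X) {α : Type} [Fintype α]
    [DecidableEq α] {D k : ℕ} (hD : 1 ≤ D) :
    ∃ (ι : Type) (_ : Fintype ι) (p : ι → ℝ) (M : ι → List (α × α)),
      (∀ i, 0 ≤ p i) ∧ (∑ i, p i ≤ 1) ∧ (∀ i, IsMatching (M i)) ∧
      (∀ i, 2 * Fintype.card α ≤ 2 * (M i).length + Fintype.card X) ∧
      ∀ f : FS α, ⟪op (W.qlaw D (gInd (α := α) W D k)) f, f⟫_ℝ ≤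
        ∑ i, p i * ⟪PM (M i) f, f⟫_ℝ := by
  classical
  refine ⟨(α ↪ X), inferInstance, fun f => (avg fun r : Fin D → X → Bool => gInd W D k f r) /
    Fintype.card (α ↪ X), fun f => (mlist W 0 f).map fun a => (a, W.partner 0 f a),
    fun f => ?_, ?_, fun f => isMatching_mlist W 0 f, fun f => ?_, fun F => ?_⟩
  · have := avg_nonneg (f := fun r : Fin D → X → Bool => gInd W D k f r)
      (fun r => gInd_nonneg W D k f r)
    positivity
  · rw [← sum_div]
    exact Net.avg_le_of_le (β := α ↪ X) zero_le_one fun f => Net.avg_le_of_le zero_le_one fun r =>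
      gInd_le_one W D k f r
  · rw [List.length_map]
    exact length_mlist W 0 f
  · rw [inner_op_qlaw]
    have h1 : ∀ f : α ↪ X, (avg fun r : Fin D → X → Bool => gInd W D k f r *
        ‖vavg (fun e : Fin D → X → Bool => lt (W.hid 0 D f r e) F)‖ ^ 2) ≤
        (avg fun r : Fin D → X → Bool => gInd W D k f r) *
          ⟪PM ((mlist W 0 f).map fun a => (a, W.partner 0 f a)) F, F⟫_ℝ := by
      intro f
      rw [← avg_mul_right]
      refine avg_mono fun r => ?_
      exact mul_le_mul_of_nonneg_left (norm_vavg_hid_le W hD f r F) (gInd_nonneg W D k f r)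
    refine (avg_mono h1).trans (le_of_eq ?_)
    rw [avg, sum_div]
    refine sum_congr rfl fun f _ => ?_
    ring

/-- **The data of the abstract theorem** for a network with the unique path property, for the red
lines at least `7/8` of the deck. -/
theorem qlaw_data {X : Type} [Fintype X] [DecidableEq X] (W : Net X) {α : Type} [Fintype α]
    [DecidableEq α] {D k : ℕ} {κ : ℝ} (hUP : UP W 0 D) (hD : 1 ≤ D)
    (heven : Even (Fintype.card α))
    (hk : √(1 / 2 : ℝ) ^ k ≤ (Fintype.card α : ℝ) ^ (-κ))
    (hm : 7 * Fintype.card X ≤ 8 * Fintype.card α) :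
    Data (W.qlaw D (gInd (α := α) W D k)) κ where
  even := heven
  nonneg := Net.qlaw_nonneg (gInd_nonneg W D k)
  sum_le := by
    rw [Net.sum_qlaw]
    exact Net.avg_le_of_le zero_le_one fun f => Net.avg_le_of_le zero_le_one fun r =>
      gInd_le_one W D k f r
  symm := Net.qlaw_inv _ _
  class_fn := Net.qlaw_conj (gInd_relab W D k)
  psd := by
    intro F
    rw [inner_op_qlaw]
    exact avg_nonneg fun f => avg_nonneg fun r => mul_nonneg (gInd_nonneg W D k f r) (sq_nonneg _)
  fix_le := by
    intro S
    refine (fix_le W hUP S).trans ?_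
    gcongr
  matching := by
    obtain ⟨ι, hι, p, M, h1, h2, h3, h4, h5⟩ := qlaw_matching (α := α) W (k := k) hD
    exact ⟨ι, hι, p, M, h1, h2, h3, fun i => by have := h4 i; omega, h5⟩

end step

end Vale.Agent.P162.H790
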