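import Mathlib

/-!
# Lemma EB (P162, stage 2, part E1)

`V` is a finite dimensional real inner product space with an orthogonal representation `ρ` of
`Perm α`.  If `W` is a subspace stable under the transpositions of a finite set `Ω`, and no
nonzero vector of `W` is invariant under all transpositions of a set `B ⊆ Ω` with more than `i`
elements, then the sum of all transpositions of `Ω` is at most `|Ω| (i - 1) / 2` on `W`.
-/

namespace Vale.Agent.P162.H790

open Equiv Finset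
open scoped RealInnerProductSpace

variable {α : Type*} [DecidableEq α]
variable {V : Type*} [NormedAddCommGroup V] [InnerProductSpace ℝ V]

omit [DecidableEq α] in
theorem inner_map (ρ : Perm α →* (V →ₗ[ℝ] V)) (hρ : ∀ g v, ‖ρ g v‖ = ‖v‖) (g : Perm α)
    (u v : V) : ⟪ρ g u, ρ g v⟫ = ⟪u, v⟫ :=
  (⟨ρ g, hρ g⟩ : V →ₗᵢ[ℝ] V).inner_map_map u v

omit [DecidableEq α] in
theorem rho_refl (ρ : Perm α →* (V →ₗ[ℝ] V)) (u : V) : ρ (Equiv.refl α) u = u := by
  have : ρ (Equiv.refl α) = 1 := map_one ρ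
  rw [this]; rfl

theorem map_swap_swap (ρ : Perm α →* (V →ₗ[ℝ] V)) (x y : α) (u : V) :
    ρ (swap x y) (ρ (swap x y) u) = u := by
  have h : ρ (swap x y) * ρ (swap x y) = 1 := by rw [← map_mul, swap_mul_self, map_one]
  have := LinearMap.congr_fun h u
  simpa using this

theorem inner_swap (ρ : Perm α →* (V →ₗ[ℝ] V)) (hρ : ∀ g v, ‖ρ g v‖ = ‖v‖) (x y : α)
    (u v : V) : ⟪ρ (swap x y) u, v⟫ = ⟪u, ρ (swap x y) v⟫ := by
  rw [← inner_map ρ hρ (swap x y) (ρ (swap x y) u) v, map_swap_swap]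

/-- The sum of the transpositions of `Ω`, over ordered pairs. -/
noncomputable def pairSum (ρ : Perm α →* (V →ₗ[ℝ] V)) (Ω : Finset α) : V →ₗ[ℝ] V :=
  ∑ p ∈ Ω.offDiag, ρ (swap p.1 p.2)

theorem pairSum_apply (ρ : Perm α →* (V →ₗ[ℝ] V)) (Ω : Finset α) (u : V) :
    pairSum ρ Ω u = ∑ p ∈ Ω.offDiag, ρ (swap p.1 p.2) u := by
  simp [pairSum, LinearMap.sum_apply]

theorem pairSum_mem (ρ : Perm α →* (V →ₗ[ℝ] V)) (Ω : Finset α) (W : Submodule ℝ V)
    (hW : ∀ x ∈ Ω, ∀ y ∈ Ω, ∀ w ∈ W, ρ (swap x y) w ∈ W) {w : V} (hw : w ∈ W) :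
    pairSum ρ Ω w ∈ W := by
  rw [pairSum_apply]
  refine Submodule.sum_mem _ fun p hp => ?_
  rw [mem_offDiag] at hp
  exact hW _ hp.1 _ hp.2.1 _ hw

theorem pairSum_symm (ρ : Perm α →* (V →ₗ[ℝ] V)) (hρ : ∀ g v, ‖ρ g v‖ = ‖v‖) (Ω : Finset α)
    (u v : V) : ⟪pairSum ρ Ω u, v⟫ = ⟪u, pairSum ρ Ω v⟫ := by
  rw [pairSum_apply, pairSum_apply, sum_inner, inner_sum]
  exact sum_congr rfl fun p _ => inner_swap ρ hρ _ _ _ _

/-- `ρ (swap a b)` and `ρ (swap x y)` satisfy the conjugation rule. -/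
theorem swap_conj (ρ : Perm α →* (V →ₗ[ℝ] V)) (a b x y : α) (u : V) :
    ρ (swap a b) (ρ (swap x y) u) =
      ρ (swap (swap a b x) (swap a b y)) (ρ (swap a b) u) := by
  have h : swap a b * swap x y = swap (swap a b x) (swap a b y) * swap a b :=
    Equiv.mul_swap_eq_swap_mul _ _ _
  have h2 := congrArg ρ h
  rw [map_mul, map_mul] at h2
  exact LinearMap.congr_fun h2 u

theorem swap_mem {Ω : Finset α} {a b x : α} (ha : a ∈ Ω) (hb : b ∈ Ω) (hx : x ∈ Ω) :
    swap a b x ∈ Ω := by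
  rw [swap_apply_def]; split_ifs <;> assumption

theorem pairSum_comm (ρ : Perm α →* (V →ₗ[ℝ] V)) (Ω : Finset α) {a b : α} (ha : a ∈ Ω)
    (hb : b ∈ Ω) (u : V) :
    pairSum ρ Ω (ρ (swap a b) u) = ρ (swap a b) (pairSum ρ Ω u) := by
  rw [pairSum_apply, pairSum_apply, map_sum]
  symm
  refine Finset.sum_equiv ((swap a b).prodCongr (swap a b)) ?_ ?_
  · intro p
    simp only [mem_offDiag, Equiv.prodCongr_apply, Prod.map_fst, Prod.map_snd, ne_eq,
      EmbeddingLike.apply_eq_iff_eq]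
    constructor
    · rintro ⟨h1, h2, h3⟩
      exact ⟨swap_mem ha hb h1, swap_mem ha hb h2, h3⟩
    · rintro ⟨h1, h2, h3⟩
      refine ⟨?_, ?_, h3⟩
      · simpa using swap_mem ha hb h1
      · simpa using swap_mem ha hb h2
  · intro p _
    rw [swap_conj]
    rfl

/-- A symmetric operator all of whose eigenvalues are at most `M` is at most `M`. -/
theorem rayleigh_le {E : Type*} [NormedAddCommGroup E] [InnerProductSpace ℝ E]
    [FiniteDimensional ℝ E] (T : E →ₗ[ℝ] E) (hT : T.IsSymmetric) (M : ℝ)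
    (h : ∀ (μ : ℝ) (v : E), v ≠ 0 → T v = μ • v → μ ≤ M) (w : E) :
    ⟪T w, w⟫ ≤ M * ‖w‖ ^ 2 := by
  set b := hT.eigenvectorBasis (rfl : Module.finrank ℝ E = _) with hb
  have h1 : ∀ i, T (b i) = (hT.eigenvalues rfl i) • b i := fun i =>
    hT.apply_eigenvectorBasis rfl i
  have h2 : ∀ i, hT.eigenvalues rfl i ≤ M := fun i => h _ (b i) (by
    have := b.orthonormal.ne_zero i
    exact this) (h1 i)
  rw [← b.sum_inner_mul_inner (T w) w, ← real_inner_self_eq_norm_sq,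
    ← b.sum_inner_mul_inner w w, Finset.mul_sum]
  refine Finset.sum_le_sum fun i _ => ?_
  rw [hT w (b i), h1 i, real_inner_smul_right, mul_assoc, real_inner_comm (b i) w]
  have := h2 i
  nlinarith [mul_self_nonneg (⟪b i, w⟫ : ℝ)]

/-- Left multiplication by a transposition of `insert x B` permutes the cosets of `S_B`. -/
theorem coset_perm (ρ : Perm α →* (V →ₗ[ℝ] V)) {B : Finset α} {x : α} (hx : x ∉ B) {u : V}
    (hu : ∀ p ∈ B, ∀ q ∈ B, ρ (swap p q) u = u) {p q y : α} (hp : p ∈ insert x B)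
    (hq : q ∈ insert x B) (hy : y ∈ insert x B) :
    ρ (swap p q) (ρ (swap x y) u) = ρ (swap x (swap p q y)) u := by
  -- reduce to the case `q ∈ B` and `p = x` or `p ∈ B`
  have key1 : ∀ p ∈ B, ∀ q ∈ B, ∀ y, 
      ρ (swap p q) (ρ (swap x y) u) = ρ (swap x (swap p q y)) u := by
    intro p hp q hq y
    rw [swap_conj, hu p hp q hq]
    have hpx : x ≠ p := fun h => hx (h ▸ hp)
    have hqx : x ≠ q := fun h => hx (h ▸ hq)
    rw [swap_apply_of_ne_of_ne hpx hqx]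
  have key2 : ∀ q ∈ B, ∀ y ∈ insert x B,
      ρ (swap x q) (ρ (swap x y) u) = ρ (swap x (swap x q y)) u := by
    intro q hq y hy
    have hqx : x ≠ q := fun h => hx (h ▸ hq)
    by_cases hyx : y = x
    · subst hyx
      rw [swap_self, rho_refl, swap_apply_left]
    by_cases hyq : y = q
    · subst hyq
      rw [map_swap_swap]
      simp [rho_refl]
    · have hyB : y ∈ B := by
        rcases mem_insert.1 hy with h | h
        · exact absurd h hyx
        · exact h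
      have e : swap x q * swap x y = swap x y * swap y q := by
        have := Equiv.mul_swap_eq_swap_mul (swap x y) y q
        rw [swap_apply_right, swap_apply_of_ne_of_ne (Ne.symm hqx) (Ne.symm hyq)] at this
        rw [this]
      have e2 := congrArg ρ e
      rw [map_mul, map_mul] at e2
      have e3 := LinearMap.congr_fun e2 u
      rw [swap_apply_of_ne_of_ne hyx hyq]
      calc ρ (swap x q) (ρ (swap x y) u) = ρ (swap x y) (ρ (swap y q) u) := e3
        _ = ρ (swap x y) u := by rw [hu y hyB q hq]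
  by_cases hpq : p = q
  · subst hpq
    rw [swap_self, rho_refl]
    rfl
  rcases mem_insert.1 hp with rfl | hpB
  · rcases mem_insert.1 hq with rfl | hqB
    · exact absurd rfl hpq
    · exact key2 q hqB y hy
  · rcases mem_insert.1 hq with rfl | hqB
    · rw [swap_comm p q]
      exact key2 p hpB y hy
    · exact key1 p hpB q hqB y

/-- The sum over the cosets of `S_B` in `S_{B ∪ {x}}` is invariant. -/
theorem coset_sum_inv (ρ : Perm α →* (V →ₗ[ℝ] V)) {B : Finset α} {x : α} (hx : x ∉ B) {u : V}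
    (hu : ∀ p ∈ B, ∀ q ∈ B, ρ (swap p q) u = u) {p q : α} (hp : p ∈ insert x B)
    (hq : q ∈ insert x B) :
    ρ (swap p q) (∑ y ∈ insert x B, ρ (swap x y) u) = ∑ y ∈ insert x B, ρ (swap x y) u := by
  rw [map_sum]
  refine Finset.sum_equiv (swap p q) ?_ ?_
  · intro y
    constructor
    · intro h; exact swap_mem hp hq h
    · intro h; simpa using swap_mem hp hq h
  · intro y hy
    exact coset_perm ρ hx hu hp hq hy

/-- **Lemma EB**, eigenvalue form of the induction step and final form. -/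
theorem inner_pairSum_le [FiniteDimensional ℝ V] (ρ : Perm α →* (V →ₗ[ℝ] V))
    (hρ : ∀ g v, ‖ρ g v‖ = ‖v‖) (n : ℕ) : ∀ (Ω : Finset α), Ω.card = n →
    ∀ (W : Submodule ℝ V) (_ : ∀ x ∈ Ω, ∀ y ∈ Ω, ∀ w ∈ W, ρ (swap x y) w ∈ W) (i : ℕ)
    (_ : ∀ B ⊆ Ω, i < B.card → ∀ w ∈ W, (∀ x ∈ B, ∀ y ∈ B, ρ (swap x y) w = w) → w = 0),
    ∀ w ∈ W, ⟪pairSum ρ Ω w, w⟫ ≤ Ω.card * ((i : ℝ) - 1) * ‖w‖ ^ 2 := by
  induction n using Nat.strong_induction_on with
  | _ n ih =>
  intro Ω hΩ W hW i hi w hw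
  rcases Ω.eq_empty_or_nonempty with rfl | hne
  · simp [pairSum_apply]
  -- the restriction of the operator to `W`
  let T : W →ₗ[ℝ] W := (pairSum ρ Ω).restrict (fun v hv => pairSum_mem ρ Ω W hW hv)
  have hT : T.IsSymmetric := by
    intro a b
    exact pairSum_symm ρ hρ Ω a b
  have key : ∀ (μ : ℝ) (v : W), v ≠ 0 → T v = μ • v → μ ≤ Ω.card * ((i : ℝ) - 1) := by
    intro μ v hv hTv
    have hv0 : (v : V) ≠ 0 := by simpa using hv
    have hTv' : pairSum ρ Ω (v : V) = μ • (v : V) := by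
      have := congrArg (Subtype.val) hTv
      simpa [T] using this
    -- eigenspace
    let E : Submodule ℝ V := W ⊓ LinearMap.ker (pairSum ρ Ω - μ • LinearMap.id)
    have memE : ∀ u, u ∈ E ↔ u ∈ W ∧ pairSum ρ Ω u = μ • u := by
      intro u
      simp [E, sub_eq_zero]
    have hEs : ∀ x ∈ Ω, ∀ y ∈ Ω, ∀ u ∈ E, ρ (swap x y) u ∈ E := by
      intro x hx y hy u hu
      rw [memE] at hu ⊢
      refine ⟨hW x hx y hy u hu.1, ?_⟩
      rw [pairSum_comm ρ Ω hx hy, hu.2, map_smul]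
    -- sets with nonzero invariant vectors in the eigenspace
    let P : Finset α → Prop := fun B => ∃ u ∈ E, u ≠ 0 ∧ ∀ x ∈ B, ∀ y ∈ B, ρ (swap x y) u = u
    classical
    let F := Ω.powerset.filter P
    have hF : ∀ x ∈ Ω, {x} ∈ F := by
      intro x hx
      rw [mem_filter, mem_powerset]
      refine ⟨by simpa using hx, (v : V), (memE _).2 ⟨v.2, hTv'⟩, hv0, ?_⟩
      intro a ha b hb
      rw [mem_singleton] at ha hb
      subst ha hb
      simp [rho_refl]
    obtain ⟨x0, hx0⟩ := hne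
    obtain ⟨B, hBF, hmax⟩ := Finset.exists_max_image F Finset.card ⟨{x0}, hF x0 hx0⟩
    rw [mem_filter, mem_powerset] at hBF
    obtain ⟨hBΩ, u, huE, hu0, huB⟩ := hBF
    have hmax' : ∀ B' ⊆ Ω, B.card < B'.card → ∀ u ∈ E,
        (∀ x ∈ B', ∀ y ∈ B', ρ (swap x y) u = u) → u = 0 := by
      intro B' hB' hc u' hu' hinv
      by_contra h0
      have : B' ∈ F := by
        rw [mem_filter, mem_powerset]
        exact ⟨hB', u', hu', h0, hinv⟩
      exact absurd (hmax B' this) (by omega)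
    have hb1 : 1 ≤ B.card := by
      have := hmax {x0} (hF x0 hx0)
      simpa using this
    have hbi : B.card ≤ i := by
      by_contra hlt
      exact hu0 (hi B hBΩ (by omega) u ((memE u).1 huE).1 huB)
    set C := Ω \ B with hC
    have hdisj : Disjoint B C := disjoint_sdiff
    have hunion : B ∪ C = Ω := by rw [hC]; exact union_sdiff_of_subset hBΩ
    have hcard : B.card + C.card = Ω.card := by
      rw [← card_union_of_disjoint hdisj, hunion]
    -- coset relation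
    have hcos : ∀ x ∈ C, ∑ y ∈ B, ρ (swap x y) u = -u := by
      intro x hx
      have hxΩ : x ∈ Ω := (mem_sdiff.1 hx).1
      have hxB : x ∉ B := (mem_sdiff.1 hx).2
      have hz : ∑ y ∈ insert x B, ρ (swap x y) u = 0 := by
        refine hmax' (insert x B) (insert_subset hxΩ hBΩ) ?_ _ ?_ ?_
        · rw [card_insert_of_notMem hxB]; omega
        · refine Submodule.sum_mem _ fun y hy => ?_
          refine hEs x hxΩ y ?_ u huE
          rcases mem_insert.1 hy with rfl | h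
          · exact hxΩ
          · exact hBΩ h
        · intro p hp q hq
          exact coset_sum_inv ρ hxB huB hp hq
      rw [sum_insert hxB, swap_self] at hz
      rw [rho_refl] at hz
      rw [eq_neg_iff_add_eq_zero, add_comm]
      exact hz
    -- decomposition of the sum
    have hdec : pairSum ρ Ω u = ((B.card : ℝ) * (B.card - 1)) • u
        + (-(2 * (C.card : ℝ))) • u + pairSum ρ C u := by
      have hoff : Ω.offDiag = (B.offDiag ∪ C.offDiag ∪ B ×ˢ C) ∪ C ×ˢ B := by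
        rw [← hunion, offDiag_union hdisj]
      have d1 : Disjoint (B.offDiag ∪ C.offDiag ∪ B ×ˢ C) (C ×ˢ B) := by
        rw [Finset.disjoint_left]
        intro p hp hp'
        simp only [mem_union, mem_offDiag, mem_product] at hp hp'
        have hd := Finset.disjoint_left.1 hdisj
        rcases hp with (⟨h1, h2, _⟩ | ⟨h1, h2, _⟩) | ⟨h1, h2⟩
        · exact hd h1 hp'.1
        · exact hd hp'.2 h2
        · exact hd h1 hp'.1
      have d2 : Disjoint (B.offDiag ∪ C.offDiag) (B ×ˢ C) := by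
        rw [Finset.disjoint_left]
        intro p hp hp'
        simp only [mem_union, mem_offDiag, mem_product] at hp hp'
        have hd := Finset.disjoint_left.1 hdisj
        rcases hp with ⟨h1, h2, _⟩ | ⟨h1, h2, _⟩
        · exact hd h2 hp'.2
        · exact hd hp'.1 h1
      have d3 : Disjoint (B.offDiag) (C.offDiag) := by
        rw [Finset.disjoint_left]
        intro p hp hp'
        simp only [mem_offDiag] at hp hp'
        exact Finset.disjoint_left.1 hdisj hp.1 hp'.1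
      have sB : ∑ p ∈ B.offDiag, ρ (swap p.1 p.2) u = ((B.card : ℝ) * (B.card - 1)) • u := by
        have : ∀ p ∈ B.offDiag, ρ (swap p.1 p.2) u = u := by
          intro p hp
          rw [mem_offDiag] at hp
          exact huB _ hp.1 _ hp.2.1
        rw [sum_congr rfl this, sum_const, offDiag_card, ← Nat.cast_smul_eq_nsmul ℝ]
        congr 1
        rw [Nat.cast_sub (Nat.le_mul_self _)]
        push_cast
        ring
      have sCB : ∑ p ∈ C ×ˢ B, ρ (swap p.1 p.2) u = (-(C.card : ℝ)) • u := by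
        rw [sum_product]
        rw [sum_congr rfl (fun x hx => hcos x hx), sum_const, ← Nat.cast_smul_eq_nsmul ℝ]
        simp
      have sBC : ∑ p ∈ B ×ˢ C, ρ (swap p.1 p.2) u = (-(C.card : ℝ)) • u := by
        rw [sum_product_right]
        have : ∀ x ∈ C, ∑ y ∈ B, ρ (swap y x) u = -u := by
          intro x hx
          rw [← hcos x hx]
          exact sum_congr rfl fun y _ => by rw [swap_comm]
        rw [sum_congr rfl (fun x hx => this x hx), sum_const, ← Nat.cast_smul_eq_nsmul ℝ]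
        simp
      rw [pairSum_apply, hoff, sum_union d1, sum_union d2, sum_union d3, sB, sBC, sCB,
        ← pairSum_apply]
      module
    -- induction hypothesis on `C`
    let W' : Submodule ℝ V := 
      { carrier := {w | w ∈ E ∧ ∀ x ∈ B, ∀ y ∈ B, ρ (swap x y) w = w}
        add_mem' := by
          rintro a b ⟨ha, ha'⟩ ⟨hb, hb'⟩
          exact ⟨E.add_mem ha hb, fun x hx y hy => by rw [map_add, ha' x hx y hy, hb' x hx y hy]⟩
        zero_mem' := ⟨E.zero_mem, fun x _ y _ => map_zero _⟩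
        smul_mem' := by
          rintro c a ⟨ha, ha'⟩
          exact ⟨E.smul_mem c ha, fun x hx y hy => by rw [map_smul, ha' x hx y hy]⟩ }
    have hW' : ∀ x ∈ C, ∀ y ∈ C, ∀ w ∈ W', ρ (swap x y) w ∈ W' := by
      rintro x hx y hy w ⟨hwE, hwB⟩
      refine ⟨hEs x (mem_sdiff.1 hx).1 y (mem_sdiff.1 hy).1 w hwE, ?_⟩
      intro a ha b hb
      have hd := Finset.disjoint_left.1 hdisj
      have hax : a ≠ x := fun h => hd ha (h ▸ hx)
      have hay : a ≠ y := fun h => hd ha (h ▸ hy)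
      have hbx : b ≠ x := fun h => hd hb (h ▸ hx)
      have hby : b ≠ y := fun h => hd hb (h ▸ hy)
      rw [swap_conj, swap_apply_of_ne_of_ne hax.symm hbx.symm,
        swap_apply_of_ne_of_ne hay.symm hby.symm, hwB a ha b hb]
    have hi' : ∀ B' ⊆ C, B.card < B'.card → ∀ w ∈ W',
        (∀ x ∈ B', ∀ y ∈ B', ρ (swap x y) w = w) → w = 0 := by
      rintro B' hB' hc w ⟨hwE, _⟩ hinv
      exact hmax' B' (hB'.trans sdiff_subset) hc w hwE hinv
    have hIH := ih C.card (by omega) C rfl W' hW' B.card hi' u ⟨huE, huB⟩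
    -- conclusion
    have hval : μ * ‖u‖ ^ 2 = ((B.card : ℝ) * (B.card - 1)) * ‖u‖ ^ 2
        - 2 * C.card * ‖u‖ ^ 2 + ⟪pairSum ρ C u, u⟫ := by
      have h1 : ⟪pairSum ρ Ω u, u⟫ = μ * ‖u‖ ^ 2 := by
        rw [((memE u).1 huE).2, real_inner_smul_left, real_inner_self_eq_norm_sq]
      rw [← h1, hdec, inner_add_left, inner_add_left, real_inner_smul_left, real_inner_smul_left,
        real_inner_self_eq_norm_sq]
      ring
    have hupos : 0 < ‖u‖ ^ 2 := by positivity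
    have hcR : (B.card : ℝ) + C.card = Ω.card := by exact_mod_cast hcard
    have hbiR : (B.card : ℝ) ≤ i := by exact_mod_cast hbi
    have hC0 : (0 : ℝ) ≤ C.card := Nat.cast_nonneg _
    have hΩ0 : (0 : ℝ) ≤ Ω.card := Nat.cast_nonneg _
    have h3 : μ * ‖u‖ ^ 2 ≤ (Ω.card * ((i : ℝ) - 1)) * ‖u‖ ^ 2 := by
      rw [hval]
      have h4 : ((B.card : ℝ) * (B.card - 1)) - 2 * C.card + C.card * ((B.card : ℝ) - 1)
          ≤ Ω.card * ((i : ℝ) - 1) := by
        rw [← hcR]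
        nlinarith
      nlinarith
    exact le_of_mul_le_mul_right h3 hupos
  have := rayleigh_le T hT _ key ⟨w, hw⟩
  simpa [T] using this

/-- Ordered pairs: the double sum over `Ω` and `Ω.erase x` is `pairSum`. -/
theorem sum_erase_eq (ρ : Perm α →* (V →ₗ[ℝ] V)) (Ω : Finset α) (w : V) :
    ∑ x ∈ Ω, ∑ y ∈ Ω.erase x, ⟪ρ (swap x y) w, w⟫ = ⟪pairSum ρ Ω w, w⟫ := by
  rw [pairSum_apply, sum_inner, Finset.sum_sigma']
  refine Finset.sum_bij' (fun p _ => (p.1, p.2)) (fun p _ => ⟨p.1, p.2⟩) ?_ ?_ ?_ ?_ ?_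
  · rintro ⟨x, y⟩ h
    simp only [mem_sigma, mem_erase, mem_offDiag] at h ⊢
    exact ⟨h.1, h.2.2, h.2.1.symm⟩
  · rintro ⟨x, y⟩ h
    simp only [mem_sigma, mem_erase, mem_offDiag] at h ⊢
    exact ⟨h.1, h.2.2.symm, h.2.1⟩
  · rintro ⟨x, y⟩ _; rfl
  · rintro ⟨x, y⟩ _; rfl
  · rintro ⟨x, y⟩ _; rfl

/-- **Lemma EB**: the sum of the transpositions of `Ω` (ordered pairs). -/
theorem sum_inner_swap_le [FiniteDimensional ℝ V] (ρ : Perm α →* (V →ₗ[ℝ] V))
    (hρ : ∀ g v, ‖ρ g v‖ = ‖v‖) (Ω : Finset α) (W : Submodule ℝ V)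
    (hW : ∀ x ∈ Ω, ∀ y ∈ Ω, ∀ w ∈ W, ρ (swap x y) w ∈ W) (i : ℕ)
    (hi : ∀ B ⊆ Ω, i < B.card → ∀ w ∈ W, (∀ x ∈ B, ∀ y ∈ B, ρ (swap x y) w = w) → w = 0)
    {w : V} (hw : w ∈ W) :
    ∑ x ∈ Ω, ∑ y ∈ Ω.erase x, ⟪ρ (swap x y) w, w⟫ ≤ Ω.card * ((i : ℝ) - 1) * ‖w‖ ^ 2 := by
  rw [sum_erase_eq]
  exact inner_pairSum_le ρ hρ _ Ω rfl W hW i hi w hw

/-- **Lemma EB**, energy form, all ordered pairs (the diagonal terms vanish). -/
theorem energy_ge [FiniteDimensional ℝ V] (ρ : Perm α →* (V →ₗ[ℝ] V))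
    (hρ : ∀ g v, ‖ρ g v‖ = ‖v‖) (Ω : Finset α) (W : Submodule ℝ V)
    (hW : ∀ x ∈ Ω, ∀ y ∈ Ω, ∀ w ∈ W, ρ (swap x y) w ∈ W) (i : ℕ)
    (hi : ∀ B ⊆ Ω, i < B.card → ∀ w ∈ W, (∀ x ∈ B, ∀ y ∈ B, ρ (swap x y) w = w) → w = 0)
    {w : V} (hw : w ∈ W) :
    Ω.card * ((Ω.card : ℝ) - i) * ‖w‖ ^ 2 ≤
      ∑ x ∈ Ω, ∑ y ∈ Ω, (‖w‖ ^ 2 - ⟪ρ (swap x y) w, w⟫) := by
  have h := sum_inner_swap_le ρ hρ Ω W hW i hi hw
  have h2 : ∀ x ∈ Ω, ∑ y ∈ Ω, (‖w‖ ^ 2 - ⟪ρ (swap x y) w, w⟫) =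
      ((Ω.card : ℝ) - 1) * ‖w‖ ^ 2 - ∑ y ∈ Ω.erase x, ⟪ρ (swap x y) w, w⟫ := by
    intro x hx
    rw [← Finset.add_sum_erase Ω _ hx, swap_self, rho_refl, real_inner_self_eq_norm_sq, sub_self,
      zero_add, Finset.sum_sub_distrib, Finset.sum_const, card_erase_of_mem hx, nsmul_eq_mul,
      Nat.cast_sub (Finset.card_pos.2 ⟨x, hx⟩)]
    push_cast
    ring
  rw [Finset.sum_congr rfl h2, Finset.sum_sub_distrib, Finset.sum_const, nsmul_eq_mul]
  nlinarith

/-- **Lemma EB**, energy form, ordered pairs of distinct elements. -/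
theorem energy_erase_ge [FiniteDimensional ℝ V] (ρ : Perm α →* (V →ₗ[ℝ] V))
    (hρ : ∀ g v, ‖ρ g v‖ = ‖v‖) (Ω : Finset α) (W : Submodule ℝ V)
    (hW : ∀ x ∈ Ω, ∀ y ∈ Ω, ∀ w ∈ W, ρ (swap x y) w ∈ W) (i : ℕ)
    (hi : ∀ B ⊆ Ω, i < B.card → ∀ w ∈ W, (∀ x ∈ B, ∀ y ∈ B, ρ (swap x y) w = w) → w = 0)
    {w : V} (hw : w ∈ W) :
    Ω.card * ((Ω.card : ℝ) - i) * ‖w‖ ^ 2 ≤
      ∑ x ∈ Ω, ∑ y ∈ Ω.erase x, (‖w‖ ^ 2 - ⟪ρ (swap x y) w, w⟫) := by
  refine (energy_ge ρ hρ Ω W hW i hi hw).trans (le_of_eq ?_)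
  refine Finset.sum_congr rfl fun x hx => ?_
  rw [← Finset.add_sum_erase Ω _ hx, swap_self, rho_refl, real_inner_self_eq_norm_sq, sub_self,
    zero_add]

/-- **Level form.** No nonzero vector of `W` is invariant under `S_B` when
`|B| > N - k`; then on `W` the energy inside `Ω`, `|Ω| = N - 2j`, is at least
`|Ω| (k - 2j)` (ordered pairs). -/
theorem level_energy_ge [Fintype α] [FiniteDimensional ℝ V] (ρ : Perm α →* (V →ₗ[ℝ] V))
    (hρ : ∀ g v, ‖ρ g v‖ = ‖v‖) (Ω : Finset α) (W : Submodule ℝ V)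
    (hW : ∀ x ∈ Ω, ∀ y ∈ Ω, ∀ w ∈ W, ρ (swap x y) w ∈ W) (k j : ℕ) (hk : k ≤ Fintype.card α)
    (hΩ : Ω.card + 2 * j = Fintype.card α)
    (hi : ∀ B ⊆ Ω, Fintype.card α < B.card + k → ∀ w ∈ W,
      (∀ x ∈ B, ∀ y ∈ B, ρ (swap x y) w = w) → w = 0)
    {w : V} (hw : w ∈ W) :
    Ω.card * ((k : ℝ) - 2 * j) * ‖w‖ ^ 2 ≤
      ∑ x ∈ Ω, ∑ y ∈ Ω.erase x, (‖w‖ ^ 2 - ⟪ρ (swap x y) w, w⟫) := by
  have h := energy_erase_ge ρ hρ Ω W hW (Fintype.card α - k)
    (fun B hB hc => hi B hB (by omega)) hw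
  have h1 : ((Fintype.card α - k : ℕ) : ℝ) = (Ω.card : ℝ) + 2 * j - k := by
    rw [Nat.cast_sub hk, ← hΩ]
    push_cast
    ring
  rw [h1] at h
  convert h using 3
  ring

end Vale.Agent.P162.H790
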