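import Vale.Agent.P162.H790.Loops

/-!
# Bad geometries are rare (generic network), part B1
-/

namespace Vale.Agent.P162.H790

open Equiv Finset
open Vale.Agent.P162.S2

variable {X : Type*} (W : Net X) {α : Type*}

/-! ### Relabelling -/

theorem rrc_relabel (s : ℕ) (f : α ↪ X) (τ : Perm α) (c : X → Bool) (z : X) :
    W.rrc s (τ.toEmbedding.trans f) c z = W.rrc s f c z := by
  by_cases h : ∃ a b, W.rep s (f a) = z ∧ f b = W.nb s (f a)
  · rw [W.rrc_pos h]
    obtain ⟨p, q, h1, h2⟩ := h
    exact W.rrc_pos ⟨τ.symm p, τ.symm q, by simpa using h1, by simpa using h2⟩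
  · rw [W.rrc_neg h, W.rrc_neg]
    rintro ⟨p, q, h1, h2⟩
    exact h ⟨τ p, τ q, h1, h2⟩

theorem hc_relabel (a : ℕ) (f : α ↪ X) (τ : Perm α) (r e : ℕ → X → Bool) :
    hc W a (τ.toEmbedding.trans f) r e = hc W a f r e := by
  funext s z
  unfold hc
  congr 1
  exact rrc_relabel W _ (Net.mov (trk W a r s) f) τ _ _

theorem two_relabel (a : ℕ) (f : α ↪ X) (τ : Perm α) (r : ℕ → X → Bool) (s : ℕ) (x : X) :
    Two W a (τ.toEmbedding.trans f) r s x ↔ Two W a f r s x := by
  constructor
  · rintro ⟨j, hj⟩
    exact ⟨τ j, hj⟩
  · rintro ⟨j, hj⟩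
    exact ⟨τ.symm j, by simpa using hj⟩

theorem meetSet_relabel (a D : ℕ) (f : α ↪ X) (τ : Perm α) (r e : ℕ → X → Bool) (i : α) :
    meetSet W a D (τ.toEmbedding.trans f) r e i = meetSet W a D f r e (τ i) := by
  ext s
  rw [mem_meetSet, mem_meetSet, two_relabel, hc_relabel]
  rfl

/-- Good geometries do not depend on the names of the lines. -/
theorem good_relabel (a D k : ℕ) (f : α ↪ X) (τ : Perm α) (r : Fin D → X → Bool) :
    Good W a D k (τ.toEmbedding.trans f) r ↔ Good W a D k f r := by
  constructor
  · intro h e i
    have := h e (τ.symm i)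
    rw [meetSet_relabel] at this
    simpa using this
  · intro h e i
    rw [meetSet_relabel]
    exact h e _

/-! ### Restricting the hidden coins to one path -/

variable [DecidableEq X]

/-- The hidden coins `e`, kept only at the switches visited by the card `i`. -/
noncomputable def keep (a : ℕ) (f : α ↪ X) (r e : ℕ → X → Bool) (i : α) : ℕ → X → Bool :=
  fun s z => e s z && decide (z = W.rep (a + s) (path W a f r e s i))

omit [DecidableEq X] in
theorem rrc_congr {s : ℕ} {f : α ↪ X} {c c' : X → Bool} {z : X} (h : c z = c' z) :
    W.rrc s f c z = W.rrc s f c' z := by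
  unfold Net.rrc
  rw [h]

theorem path_keep (a : ℕ) (f : α ↪ X) (r e : ℕ → X → Bool) (i : α) (s : ℕ) :
    path W a f r (keep W a f r e i) s i = path W a f r e s i := by
  induction s with
  | zero => rfl
  | succ s ih =>
    have h1 : path W a f r (keep W a f r e i) (s + 1) i =
        W.step (a + s) (hc W a f r (keep W a f r e i) s) (path W a f r (keep W a f r e i) s i) := by
      unfold path
      rw [trk_succ]
      rfl
    have h2 : path W a f r e (s + 1) i = W.step (a + s) (hc W a f r e s) (path W a f r e s i) := by
      unfold path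
      rw [trk_succ]
      rfl
    rw [h1, h2, ih]
    unfold Net.step
    rw [Perm.mul_apply, Perm.mul_apply, W.sw_apply, W.sw_apply]
    have h3 : hc W a f r (keep W a f r e i) s (W.rep (a + s) (path W a f r e s i)) =
        hc W a f r e s (W.rep (a + s) (path W a f r e s i)) := by
      unfold hc
      congr 1
      apply rrc_congr
      simp [keep]
    rw [h3]

theorem meetSet_keep (a D : ℕ) (f : α ↪ X) (r e : ℕ → X → Bool) (i : α) :
    meetSet W a D f r (keep W a f r e i) i = meetSet W a D f r e i := by
  ext s
  rw [mem_meetSet, mem_meetSet]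
  have := path_keep W a f r e i s
  unfold path at this
  rw [this]

/-- The start site of the item that shares the switch of the path of `x` at time `s`. -/
def pstart (a : ℕ) (w : ℕ → X → Bool) (s : ℕ) (x : X) : X :=
  (trk W a w s).symm (W.nb (a + s) (trk W a w s x))

omit [DecidableEq X] in
theorem pstart_ne (a : ℕ) (w : ℕ → X → Bool) (s : ℕ) (x : X) : pstart W a w s x ≠ x := by
  intro h
  unfold pstart at h
  rw [Equiv.symm_apply_eq] at h
  exact W.nb_ne _ _ h

open Classical in
/-- The meets of the card `i` with cards of `f` when the coins are `w`. -/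
noncomputable def mset {D : ℕ} (a : ℕ) (f : α ↪ X) (w : Fin D → X → Bool) (i : α) :
    Finset (Fin D) :=
  univ.filter fun s : Fin D => ∃ j, f j = pstart W a (extN w) s (f i)

omit [DecidableEq X] in
theorem mem_mset {D : ℕ} {a : ℕ} {f : α ↪ X} {w : Fin D → X → Bool} {i : α} {s : Fin D} :
    s ∈ mset W a f w i ↔ ∃ j, f j = pstart W a (extN w) s (f i) := by
  classical
  simp [mset]

/-- Change the coins on the path of `x` at the times in `T`. -/
noncomputable def flip {D : ℕ} (a : ℕ) (w : Fin D → X → Bool) (x : X) (T : Finset (Fin D)) :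
    Fin D → X → Bool :=
  fun s z => xor (w s z) (decide (s ∈ T ∧ z = W.rep (a + s) (trk W a (extN w) s x)))

/-- A bad geometry comes from coins with few meets, changed at some of the meets. -/
theorem exists_flip {a D k : ℕ} {f : α ↪ X} {r e : Fin D → X → Bool} {i : α}
    (hk : (meetSet W a D f (extN r) (extN e) i).card < k) :
    ∃ w : Fin D → X → Bool, (mset W a f w i).card < k ∧
      ∃ T ⊆ mset W a f w i, r = flip W a w (f i) T := by
  classical
  set r' := extN r with hr'
  set e' := keep W a f r' (extN e) i with he'
  let w : Fin D → X → Bool := fun s => hc W a f r' e' s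
  have htrk : ∀ s ≤ D, trk W a (extN w) s = trk W a (hc W a f r' e') s := by
    intro s hs
    apply trk_congr
    intro j hj
    rw [extN_lt w (lt_of_lt_of_le hj hs)]
  have hpath : ∀ s ≤ D, trk W a (extN w) s (f i) = path W a f r' (extN e) s i := by
    intro s hs
    rw [htrk s hs]
    exact path_keep W a f r' (extN e) i s
  have hmset : mset W a f w i = meetSet W a D f r' (extN e) i := by
    rw [← meetSet_keep]
    ext s
    rw [mem_meetSet, mset, mem_filter]
    simp only [mem_univ, true_and]
    unfold pstart Two
    rw [htrk s s.2.le, ← occ_iff W a f r' e']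
    constructor
    · rintro ⟨j, hj⟩
      exact ⟨j, by rw [hj, Equiv.apply_symm_apply]⟩
    · rintro ⟨j, hj⟩
      exact ⟨j, by rw [← hj, Equiv.symm_apply_apply]⟩
  refine ⟨w, by rw [hmset]; exact hk,
    (mset W a f w i).filter (fun s => e s (W.rep (a + s) (path W a f r' (extN e) s i)) = true),
    filter_subset _ _, ?_⟩
  funext s z
  unfold flip
  rw [hpath s s.2.le]
  have hw : w s z = xor (r s z) (W.rrc (a + s) (Net.mov (trk W a r' s) f) (e' s) z) := by
    change hc W a f r' e' s z = _
    unfold hc
    rw [hr', extN_val]
  rw [hw]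
  have hline : path W a f r' (extN e) s i = trk W a r' s (f (hidN W a f r' (extN e) s i)) :=
    trk_hc_apply W a f r' (extN e) s i
  have key : W.rrc (a + s) (Net.mov (trk W a r' s) f) (e' s) z =
      decide (s ∈ (mset W a f w i).filter
        (fun s => e s (W.rep (a + s) (path W a f r' (extN e) s i)) = true) ∧
          z = W.rep (a + s) (path W a f r' (extN e) s i)) := by
    by_cases hz : z = W.rep (a + s) (path W a f r' (extN e) s i)
    · have h2 : e' s z = e s z := by
        rw [he', keep, extN_val]
        simp [← hz]
      rw [rrc_congr W (c' := e s) h2]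
      by_cases htwo : Two W a f r' s (path W a f r' (extN e) s i)
      · have hs : s ∈ mset W a f w i := by
          rw [hmset, mem_meetSet]; exact htwo
        have h3 : W.rrc (a + s) (Net.mov (trk W a r' s) f) (e s) z = e s z := by
          rw [hz, hline]
          rw [hline] at htwo
          exact rrc_at W (e s) _ htwo
        rw [h3]
        simp only [mem_filter, hs, true_and, ← hz, and_true]
        cases e s z <;> simp
      · have hs : s ∉ mset W a f w i := by
          rw [hmset, mem_meetSet]; exact htwo
        have h3 : W.rrc (a + s) (Net.mov (trk W a r' s) f) (e s) z = false := by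
          rw [hz, hline]
          rw [hline] at htwo
          exact rrc_at_not W (e s) _ htwo
        rw [h3]
        simp [hs]
    · have h2 : e' s z = false := by
        rw [he', keep]
        simp [hz]
      have h3 : W.rrc (a + s) (Net.mov (trk W a r' s) f) (e' s) z = false := by
        unfold Net.rrc
        rw [h2, Bool.false_and]
      rw [h3]
      simp [hz]
  rw [key]
  generalize decide (s ∈ (mset W a f w i).filter
        (fun s => e s (W.rep (a + s) (path W a f r' (extN e) s i)) = true) ∧
          z = W.rep (a + s) (path W a f r' (extN e) s i)) = b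
  cases r s z <;> cases b <;> rfl

end Vale.Agent.P162.H790
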