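import Vale.Agent.P162.H790.Net

/-!
# Good geometries and the loop bound (generic network)
-/

namespace Vale.Agent.P162.H790

open Equiv Finset
open Vale.Agent.P162.S2

variable {X : Type*} (W : Net X) {α : Type*}

open Classical in
/-- The times `s < D` at which the card `i` is in a switch with another card of `f`; `r` are the
revealed coins, `e` the hidden ones. -/
noncomputable def meetSet (a D : ℕ) (f : α ↪ X) (r e : ℕ → X → Bool) (i : α) : Finset (Fin D) :=
  univ.filter fun s : Fin D => Two W a f r s (trk W a (hc W a f r e) s (f i))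

open Classical in
theorem mem_meetSet {a D : ℕ} {f : α ↪ X} {r e : ℕ → X → Bool} {i : α} {s : Fin D} :
    s ∈ meetSet W a D f r e i ↔ Two W a f r s (trk W a (hc W a f r e) s (f i)) := by
  simp [meetSet]

/-- Good geometry: whatever the hidden coins, every card has at least `k` meets in the window. -/
def Good (a D k : ℕ) (f : α ↪ X) (r : Fin D → X → Bool) : Prop :=
  ∀ (e : Fin D → X → Bool) (i : α), k ≤ (meetSet W a D f (extN r) (extN e) i).card

/-- Unique path property of the window. -/
def UP (a D : ℕ) : Prop :=
  ∀ (w w' : ℕ → X → Bool) (x : X), trk W a w D x = trk W a w' D x →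
    ∀ s ≤ D, trk W a w s x = trk W a w' s x

/-- Meet once property of the window: the start sites of the partners on a path are distinct. -/
def ONE (a D : ℕ) : Prop :=
  ∀ (w : ℕ → X → Bool) (x : X), ∀ s < D, ∀ t < D,
    (trk W a w s).symm (W.nb (a + s) (trk W a w s x)) =
      (trk W a w t).symm (W.nb (a + t) (trk W a w t x)) → s = t

variable [DecidableEq X]

/-- The trajectory of a card. -/
noncomputable def path (a : ℕ) (f : α ↪ X) (r e : ℕ → X → Bool) (s : ℕ) (i : α) : X :=
  trk W a (hc W a f r e) s (f i)

theorem path_eq_of_hid_eq {a D : ℕ} (hUP : UP W a D) {f : α ↪ X} {r e e' : ℕ → X → Bool} {i : α}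
    (h : hidN W a f r e D i = hidN W a f r e' D i) :
    ∀ s ≤ D, path W a f r e s i = path W a f r e' s i := by
  apply hUP
  rw [trk_hc_apply, trk_hc_apply, h]

theorem line_eq_of_path_eq {a s : ℕ} {f : α ↪ X} {r e e' : ℕ → X → Bool} {i : α}
    (h : path W a f r e s i = path W a f r e' s i) :
    hidN W a f r e s i = hidN W a f r e' s i := by
  unfold path at h
  rw [trk_hc_apply, trk_hc_apply] at h
  exact f.injective ((trk W a r s).injective h)

/-- At a meet of a card whose line is finally the same, the hidden coins agree. -/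
theorem hidden_eq {a D : ℕ} (hUP : UP W a D) {f : α ↪ X} {r e e' : ℕ → X → Bool} {i : α}
    (h : hidN W a f r e D i = hidN W a f r e' D i) {s : ℕ} (hs : s < D)
    (hm : Two W a f r s (path W a f r e s i)) :
    e s (W.rep (a + s) (path W a f r e s i)) = e' s (W.rep (a + s) (path W a f r e s i)) := by
  have hp := path_eq_of_hid_eq W hUP h
  have h1 := hp s hs.le
  have h2 := hp (s + 1) hs
  have hl := line_eq_of_path_eq W h1
  unfold path at h2
  rw [trk_succ, trk_succ, Perm.mul_apply, Perm.mul_apply] at h2
  have h3 : path W a f r e s i = trk W a (hc W a f r e) s (f i) := rfl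
  have h4 : path W a f r e' s i = trk W a (hc W a f r e') s (f i) := rfl
  rw [← h3, ← h4, ← h1] at h2
  have h5 := coin_eq W h2
  have h6 : path W a f r e s i = trk W a r s (f (hidN W a f r e s i)) := trk_hc_apply W a f r e s i
  unfold hc at h5
  rw [h6] at h5 hm ⊢
  rw [rrc_at W _ _ hm, rrc_at W _ _ hm] at h5
  simpa using h5

/-- The switches (time, label) with two lines visited by the cards of `S`. -/
noncomputable def visited (a D : ℕ) (f : α ↪ X) (r e : ℕ → X → Bool) (S : Finset α) :
    Finset (Fin D × X) :=
  (S.sigma fun i => meetSet W a D f r e i).image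
    fun p => (p.2, W.rep (a + p.2) (path W a f r e p.2 p.1))

theorem card_visited {a D k : ℕ} {f : α ↪ X} {r e : ℕ → X → Bool} {S : Finset α}
    (hk : ∀ i ∈ S, k ≤ (meetSet W a D f r e i).card) :
    k * S.card ≤ 2 * (visited W a D f r e S).card := by
  classical
  have h1 : k * S.card ≤ (S.sigma fun i => meetSet W a D f r e i).card := by
    rw [card_sigma, mul_comm, ← smul_eq_mul, ← Finset.sum_const]
    exact Finset.sum_le_sum hk
  refine h1.trans ?_
  unfold visited
  refine Finset.card_le_mul_card_image _ 2 ?_
  rintro ⟨s, z⟩ hz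
  -- fibre: at most two cards
  obtain ⟨⟨i0, s0⟩, -, h0⟩ := Finset.mem_image.1 hz
  simp only [Prod.mk.injEq] at h0
  obtain ⟨rfl, h0⟩ := h0
  set x0 := path W a f r e s0 i0 with hx0
  refine (Finset.card_le_card_of_injOn (t := {x0, W.nb (a + s0) x0})
    (fun p => path W a f r e s0 p.1) ?_ ?_).trans Finset.card_le_two
  · rintro ⟨i, s⟩ hp
    simp only [Finset.coe_filter, Set.mem_ofPred_eq, Prod.mk.injEq] at hp
    obtain ⟨-, rfl, hp⟩ := hp
    have h1 : W.rep (a + s) x0 = W.rep (a + s) (path W a f r e s i) := by rw [h0, hp]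
    have h2 := (W.rep_eq _ _ _).1 h1
    simpa using h2
  · rintro ⟨i, s⟩ hp ⟨j, t⟩ hq hpq
    simp only [Finset.coe_filter, Set.mem_ofPred_eq, Prod.mk.injEq] at hp hq
    obtain ⟨-, rfl, -⟩ := hp
    obtain ⟨-, hq, -⟩ := hq
    have hij : i = j := f.injective ((trk W a (hc W a f r e) s).injective hpq)
    subst hij hq
    rfl

section count

theorem avg_agree {ι : Type*} [Fintype ι] [DecidableEq ι] (T : Finset ι) (g : ι → Bool) :
    avg (fun h : ι → Bool => if ∀ i ∈ T, h i = g i then (1 : ℝ) else 0) = (1 / 2) ^ T.card := by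
  have h1 : (univ.filter fun h : ι → Bool => ∀ i ∈ T, h i = g i) =
      Fintype.piFinset (fun i => if i ∈ T then {g i} else univ) := by
    ext h
    simp only [mem_filter, mem_univ, true_and, Fintype.mem_piFinset]
    constructor
    · intro hh i
      by_cases hi : i ∈ T
      · simp [hi, hh i hi]
      · simp [hi]
    · intro hh i hi
      simpa [hi] using hh i
  have h2 : ((Fintype.piFinset (fun i => if i ∈ T then {g i} else univ)).card : ℝ) * 2 ^ T.card =
      2 ^ Fintype.card ι := by
    rw [Fintype.card_piFinset]
    have h3 : ∀ i, (if i ∈ T then ({g i} : Finset Bool) else univ).card =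
        if i ∈ T then 1 else 2 := by
      intro i; split_ifs <;> simp
    simp only [h3]
    rw [Finset.prod_ite]
    simp only [prod_const_one, one_mul, prod_const]
    push_cast
    rw [← pow_add]
    congr 1
    rw [Finset.filter_not, Finset.filter_mem_eq_inter, Finset.univ_inter,
      Finset.card_sdiff_of_subset (Finset.subset_univ _), Finset.card_univ]
    have := Finset.card_le_univ T
    omega
  rw [avg, Finset.sum_boole, h1, Fintype.card_fun, Fintype.card_bool]
  push_cast
  rw [div_eq_iff (by positivity), ← h2]
  rw [mul_comm, mul_assoc, ← mul_pow]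
  norm_num

/-- The same for coins indexed by time and label. -/
theorem avg_agree_curry {D : ℕ} {X : Type*} [Fintype X] [DecidableEq X] (T : Finset (Fin D × X))
    (g : Fin D → X → Bool) :
    avg (fun h : Fin D → X → Bool => if ∀ p ∈ T, h p.1 p.2 = g p.1 p.2 then (1 : ℝ) else 0) =
      (1 / 2) ^ T.card := by
  rw [← avg_agree T (fun p => g p.1 p.2), ← avg_equiv (Equiv.curry (Fin D) X Bool)]
  rfl

end count

section B2

variable [Fintype X] [DecidableEq α]

/-- **Loop bound** (B2). For a good geometry the probability that two independent hidden coin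
sequences give the same hidden permutation on `S` is at most `2 ^ (- k |S| / 2)`. -/
theorem loops {a D k : ℕ} (hUP : UP W a D) {f : α ↪ X} {r : Fin D → X → Bool}
    (hg : Good W a D k f r) (S : Finset α) {t : ℕ} (ht : 2 * t ≤ k * S.card + 1) :
    (avg fun e : Fin D → X → Bool => avg fun e' : Fin D → X → Bool =>
      if ∀ i ∈ S, W.hid a D f r e i = W.hid a D f r e' i then (1 : ℝ) else 0) ≤ (1 / 2) ^ t := by
  classical
  have h1 : ∀ e : Fin D → X → Bool, (avg fun e' : Fin D → X → Bool =>
      if ∀ i ∈ S, W.hid a D f r e i = W.hid a D f r e' i then (1 : ℝ) else 0) ≤ (1 / 2) ^ t := by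
    intro e
    set T := visited W a D f (extN r) (extN e) S with hT
    have hcard : k * S.card ≤ 2 * T.card := card_visited W (fun i _ => hg e i)
    have htT : t ≤ T.card := by omega
    calc (avg fun e' : Fin D → X → Bool =>
          if ∀ i ∈ S, W.hid a D f r e i = W.hid a D f r e' i then (1 : ℝ) else 0)
        ≤ avg (fun e' : Fin D → X → Bool =>
            if ∀ p ∈ T, e' p.1 p.2 = e p.1 p.2 then (1 : ℝ) else 0) := by
          refine avg_mono fun e' => ?_
          by_cases hh : ∀ i ∈ S, W.hid a D f r e i = W.hid a D f r e' i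
          · rw [if_pos hh, if_pos]
            rintro ⟨s, z⟩ hp
            rw [hT, visited, Finset.mem_image] at hp
            obtain ⟨⟨i, s'⟩, hi, hp⟩ := hp
            rw [Finset.mem_sigma] at hi
            simp only [Prod.mk.injEq] at hp
            obtain ⟨rfl, rfl⟩ := hp
            have hid := hh i hi.1
            rw [hid_eq_hidN, hid_eq_hidN] at hid
            have hm := (mem_meetSet W).1 hi.2
            have := hidden_eq W hUP hid s'.2 hm
            simpa only [extN_val] using this.symm
          · rw [if_neg hh]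
            split_ifs <;> norm_num
      _ = (1 / 2) ^ T.card := avg_agree_curry T e
      _ ≤ (1 / 2) ^ t := pow_le_pow_of_le_one (by norm_num) (by norm_num) htT
  have : Nonempty (Fin D → X → Bool) := ⟨fun _ _ => false⟩
  calc _ ≤ avg (fun _ : Fin D → X → Bool => ((1 / 2 : ℝ)) ^ t) := avg_mono h1
    _ = _ := avg_const _

end B2

end Vale.Agent.P162.H790
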