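import Vale.Agent.P162.S2.Col1

/-!
# Generic switch networks: trajectories, hidden coins, meets (P162, stage 3, part B)

Coin sequences are indexed by `ℕ` here; `W.pos a D w = trk W a (extN w) D`.
-/

namespace Vale.Agent.P162.H790

open Equiv Finset
open Vale.Agent.P162.S2

variable {X : Type*} (W : Net X)

/-- Positions after the first `s` steps (times `a, …, a + s - 1`) with the coins `w`. -/
def trk (a : ℕ) (w : ℕ → X → Bool) (s : ℕ) : Perm X := W.pos a s (fun i : Fin s => w i)

theorem trk_zero (a : ℕ) (w : ℕ → X → Bool) : trk W a w 0 = 1 := rfl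

theorem trk_succ (a : ℕ) (w : ℕ → X → Bool) (s : ℕ) :
    trk W a w (s + 1) = W.step (a + s) (w s) * trk W a w s := rfl

theorem trk_congr (a : ℕ) {w w' : ℕ → X → Bool} {s : ℕ} (h : ∀ i < s, w i = w' i) :
    trk W a w s = trk W a w' s := by
  unfold trk
  congr 1
  funext i
  exact h i i.2

/-- Extension of a finite coin sequence by zero. -/
def extN {D : ℕ} (w : Fin D → X → Bool) : ℕ → X → Bool :=
  fun s => if h : s < D then w ⟨s, h⟩ else fun _ => false

omit W in
theorem extN_val {D : ℕ} (w : Fin D → X → Bool) (i : Fin D) : extN w (i : ℕ) = w i := by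
  simp [extN]

omit W in
theorem extN_lt {D : ℕ} (w : Fin D → X → Bool) {s : ℕ} (h : s < D) : extN w s = w ⟨s, h⟩ := by
  simp [extN, h]

theorem pos_eq_trk (a : ℕ) {D : ℕ} (w : Fin D → X → Bool) :
    W.pos a D w = trk W a (extN w) D := by
  unfold trk
  congr 1
  funext i
  exact (extN_val w i).symm

section lines

variable {α : Type*}

/-- The hidden permutation of the lines after `s` steps. -/
noncomputable def hidN (a : ℕ) (f : α ↪ X) (r e : ℕ → X → Bool) (s : ℕ) : Perm α :=
  W.hid a s f (fun i : Fin s => r i) (fun i : Fin s => e i)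

theorem hidN_zero (a : ℕ) (f : α ↪ X) (r e : ℕ → X → Bool) : hidN W a f r e 0 = 1 := rfl

theorem hidN_succ (a : ℕ) (f : α ↪ X) (r e : ℕ → X → Bool) (s : ℕ) :
    hidN W a f r e (s + 1) =
      W.hstep (a + s) (Net.mov (trk W a r s) f) (e s) * hidN W a f r e s := rfl

theorem hid_eq_hidN (a : ℕ) {D : ℕ} (f : α ↪ X) (r e : Fin D → X → Bool) :
    W.hid a D f r e = hidN W a f (extN r) (extN e) D := by
  unfold hidN
  congr 1
  · funext i
    exact (extN_val r i).symm
  · funext i
    exact (extN_val e i).symm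

/-- The actual coins: the revealed ones, corrected by the hidden ones at the switches with two
lines. -/
noncomputable def hc (a : ℕ) (f : α ↪ X) (r e : ℕ → X → Bool) : ℕ → X → Bool :=
  fun s z => xor (r s z) (W.rrc (a + s) (Net.mov (trk W a r s) f) (e s) z)

/-- The actual positions are the positions of the lines, permuted by the hidden permutation. -/
theorem trk_hc [DecidableEq X] (a : ℕ) (f : α ↪ X) (r e : ℕ → X → Bool) (s : ℕ) :
    trk W a (hc W a f r e) s = trk W a r s * Net.ext f (hidN W a f r e s) := by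
  induction s with
  | zero => simp [trk_zero, hidN_zero]
  | succ s ih =>
    rw [trk_succ, trk_succ, hidN_succ, ih, map_mul, Net.step, Net.step]
    have h1 : W.sw (a + s) (hc W a f r e s) =
        W.sw (a + s) (r s) * W.sw (a + s) (W.rrc (a + s) (Net.mov (trk W a r s) f) (e s)) :=
      W.sw_xor (a + s) (r s) _
    have h2 := W.mul_ext_hstep (a + s) f (trk W a r s) (e s)
    rw [h1]
    calc W.tw (a + s) * (W.sw (a + s) (r s) *
          W.sw (a + s) (W.rrc (a + s) (Net.mov (trk W a r s) f) (e s))) *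
          (trk W a r s * Net.ext f (hidN W a f r e s))
        = W.tw (a + s) * W.sw (a + s) (r s) *
          (W.sw (a + s) (W.rrc (a + s) (Net.mov (trk W a r s) f) (e s)) * trk W a r s) *
            Net.ext f (hidN W a f r e s) := by simp only [mul_assoc]
      _ = _ := by rw [← h2]; simp only [mul_assoc]

theorem trk_hc_apply [DecidableEq X] (a : ℕ) (f : α ↪ X) (r e : ℕ → X → Bool) (s : ℕ) (i : α) :
    trk W a (hc W a f r e) s (f i) = trk W a r s (f (hidN W a f r e s i)) := by
  rw [trk_hc, Perm.mul_apply, Net.ext_apply]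

/-- `z` is (the label of) a switch with two lines at time `s`, lines moving with `r`. -/
def Two (a : ℕ) (f : α ↪ X) (r : ℕ → X → Bool) (s : ℕ) (x : X) : Prop :=
  ∃ j, trk W a r s (f j) = W.nb (a + s) x

theorem occ_iff [DecidableEq X] (a : ℕ) (f : α ↪ X) (r e : ℕ → X → Bool) (s : ℕ) (y : X) :
    (∃ j, trk W a (hc W a f r e) s (f j) = y) ↔ ∃ j, trk W a r s (f j) = y := by
  constructor
  · rintro ⟨j, rfl⟩
    exact ⟨hidN W a f r e s j, (trk_hc_apply W a f r e s j).symm⟩
  · rintro ⟨j, rfl⟩
    refine ⟨(hidN W a f r e s)⁻¹ j, ?_⟩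
    rw [trk_hc_apply]
    simp

theorem rrc_at {a : ℕ} {f : α ↪ X} {r : ℕ → X → Bool} {s : ℕ} (c : X → Bool) (j : α)
    (h : Two W a f r s (trk W a r s (f j))) :
    W.rrc (a + s) (Net.mov (trk W a r s) f) c (W.rep (a + s) (trk W a r s (f j))) =
      c (W.rep (a + s) (trk W a r s (f j))) := by
  obtain ⟨b, hb⟩ := h
  exact W.rrc_pos ⟨j, b, rfl, hb⟩

theorem rrc_at_not {a : ℕ} {f : α ↪ X} {r : ℕ → X → Bool} {s : ℕ} (c : X → Bool) (j : α)
    (h : ¬ Two W a f r s (trk W a r s (f j))) :
    W.rrc (a + s) (Net.mov (trk W a r s) f) c (W.rep (a + s) (trk W a r s (f j))) = false := by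
  apply W.rrc_neg
  rintro ⟨a', b', h1, h2⟩
  rcases (W.rep_eq _ _ _).1 h1 with h3 | h3
  · have : j = a' := f.injective ((trk W a r s).injective h3)
    subst this
    exact h ⟨b', h2⟩
  · apply h
    refine ⟨a', ?_⟩
    rw [h3, Net.mov_apply, W.nb_nb]

theorem coin_eq {s : ℕ} {c c' : X → Bool} {y : X} (h : W.step s c y = W.step s c' y) :
    c (W.rep s y) = c' (W.rep s y) := by
  have h1 : W.sw s c y = W.sw s c' y := by
    apply (W.tw s).injective
    exact h
  rw [W.sw_apply, W.sw_apply] at h1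
  cases hc : c (W.rep s y) <;> cases hc' : c' (W.rep s y) <;> simp [hc, hc'] at h1 ⊢
  · exact W.nb_ne s y h1.symm
  · exact W.nb_ne s y h1

end lines

end Vale.Agent.P162.H790
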