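import Vale.Agent.P162.H790.Data5
import Vale.Agent.P162.H491.Bad
import Vale.Agent.P162.S3.Even

/-!
# Part B for every even deck
-/

namespace Vale.Agent.P162.H790

open Equiv Finset
open Vale.Agent.P162.S2 Vale.Agent.P162.S2.Abs Vale.Agent.P162.H72

/-- **Part B for every even deck.** -/
theorem partBEven : S3.PartBEven (1 / 32) := by
  classical
  intro ε hε
  obtain ⟨m₀, hm₀⟩ := H491.exists_small hε
  refine ⟨m₀ + 128, fun m hm => ?_⟩
  have hL : 8 ≤ Nat.log 2 (2 * m) := by
    have h : Nat.log 2 (2 ^ 8) ≤ Nat.log 2 (2 * m) := Nat.log_mono_right (by norm_num; omega)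
    rwa [Nat.log_pow (by norm_num)] at h
  obtain ⟨-, h2, h3⟩ := H491.log_facts (m := m) (by omega)
  obtain ⟨r1, r2, r3⟩ := H491.red_facts m (by omega)
  refine ⟨gInd (thorpNet m) (Nat.log 2 (2 * m)) (Nat.log 2 (2 * m) / 8), gInd_nonneg _ _ _,
    gInd_le_one _ _ _, gInd_relab _ _ _, ?_, ?_⟩
  · refine qlaw_data5 (thorpNet m) (H491.up_thorp h2 0) (by omega) ?_ ?_ ?_
    · rw [Fintype.card_fin]
      exact even_two_mul _
    · rw [Fintype.card_fin]
      have h4 := H491.core_loop (Nat.log 2 (2 * m)) (2 * (7 * m / 8)) hL (by omega) (by omega)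
      refine le_trans (le_of_eq ?_) h4
      rw [Real.sqrt_eq_rpow, ← Real.rpow_natCast, ← Real.rpow_mul (by norm_num), one_div,
        Real.inv_rpow (by norm_num), ← Real.rpow_neg (by norm_num)]
      congr 1
      ring
    · rw [Fintype.card_fin, Fintype.card_fin]
      omega
  · refine le_trans (le_of_eq ?_) ((H491.bad_le (m := m) (by omega) 0).trans (hm₀ m (by omega)))
    have hne : Nonempty (Fin (2 * (7 * m / 8)) ↪ Fin (2 * m)) := by
      apply Function.Embedding.nonempty_of_card_le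
      rw [Fintype.card_fin, Fintype.card_fin]
      omega
    have : Nonempty (Fin (Nat.log 2 (2 * m)) → Fin (2 * m) → Bool) := ⟨fun _ _ => false⟩
    have h5 : (avg fun f : Fin (2 * (7 * m / 8)) ↪ Fin (2 * m) =>
        avg fun r : Fin (Nat.log 2 (2 * m)) → Fin (2 * m) → Bool =>
          1 - gInd (thorpNet m) (Nat.log 2 (2 * m)) (Nat.log 2 (2 * m) / 8) f r) =
        1 - avg fun f : Fin (2 * (7 * m / 8)) ↪ Fin (2 * m) =>
          avg fun r : Fin (Nat.log 2 (2 * m)) → Fin (2 * m) → Bool =>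
            gInd (thorpNet m) (Nat.log 2 (2 * m)) (Nat.log 2 (2 * m) / 8) f r := by
      simp only [avg_sub, avg_const]
    rw [← h5]
    refine avg_congr fun f => avg_congr fun r => ?_
    unfold gInd
    split_ifs <;> norm_num

end Vale.Agent.P162.H790
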